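import Mathlib

/-!
The averaging operator `avg k Φ s = ∫₀¹ t^k Φ(t² s) dt`.
-/

namespace Vale.Agent.P252

open MeasureTheory intervalIntegral Set Filter Topology
open scoped ContDiff

/-- `avg k Φ s = ∫₀¹ t^k Φ(t² s) dt`. -/
noncomputable def avg (k : ℕ) (Φ : ℝ → ℝ) (s : ℝ) : ℝ :=
  ∫ t in (0 : ℝ)..1, t ^ k * Φ (t ^ 2 * s)

theorem avg_continuous (k : ℕ) {Φ : ℝ → ℝ} (h : Continuous Φ) : Continuous (avg k Φ) := by
  unfold avg
  apply intervalIntegral.continuous_parametric_intervalIntegral_of_continuous'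
  simp only [Function.uncurry_def]
  fun_prop

theorem avg_hasDerivAt (k : ℕ) {Φ : ℝ → ℝ} (h : ContDiff ℝ 1 Φ) (s : ℝ) :
    HasDerivAt (avg k Φ) (avg (k + 2) (deriv Φ) s) s := by
  have hd : Differentiable ℝ Φ := h.differentiable (by norm_num)
  have hc : Continuous (deriv Φ) := h.continuous_deriv (by norm_num)
  -- bound for the derivative on a compact set
  obtain ⟨C, hC⟩ : ∃ C, ∀ y ∈ Icc (-(|s| + 1)) (|s| + 1), ‖deriv Φ y‖ ≤ C :=
    isCompact_Icc.exists_bound_of_continuousOn hc.continuousOn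
  have key := intervalIntegral.hasDerivAt_integral_of_dominated_loc_of_deriv_le
    (μ := volume) (a := (0 : ℝ)) (b := 1)
    (F := fun x t => t ^ k * Φ (t ^ 2 * x))
    (F' := fun x t => t ^ (k + 2) * deriv Φ (t ^ 2 * x)) (x₀ := s)
    (s := Metric.ball s 1) (bound := fun _ => C) (Metric.ball_mem_nhds s one_pos)
    (by
      refine Eventually.of_forall fun x => Continuous.aestronglyMeasurable ?_
      have := h.continuous
      fun_prop)
    (by
      apply Continuous.intervalIntegrable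
      have := h.continuous
      fun_prop)
    (by
      refine Continuous.aestronglyMeasurable ?_
      fun_prop)
    (by
      refine Eventually.of_forall fun t ht x hx => ?_
      rw [uIoc_of_le zero_le_one] at ht
      have hx' : |x - s| < 1 := by simpa [Real.dist_eq] using hx
      have hx2 : |x| ≤ |s| + 1 := by
        have : |x| ≤ |x - s| + |s| := by
          calc |x| = |(x - s) + s| := by ring_nf
            _ ≤ _ := abs_add_le _ _
        linarith
      have ht2 : t ^ 2 ≤ 1 := by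
        have := ht.1; have := ht.2; nlinarith
      have h1 : |t ^ 2 * x| ≤ |s| + 1 := by
        rw [abs_mul, abs_of_nonneg (by positivity : (0:ℝ) ≤ t ^ 2)]
        calc t ^ 2 * |x| ≤ 1 * |x| := by gcongr
          _ ≤ _ := by linarith
      have h2 := hC _ (abs_le.mp h1)
      rw [norm_mul]
      have h3 : ‖t ^ (k + 2)‖ ≤ 1 := by
        rw [Real.norm_eq_abs, abs_of_nonneg (pow_nonneg ht.1.le _)]
        exact pow_le_one₀ ht.1.le ht.2
      calc ‖t ^ (k + 2)‖ * ‖deriv Φ (t ^ 2 * x)‖ ≤ 1 * C := by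
            apply mul_le_mul h3 h2 (norm_nonneg _) zero_le_one
        _ = C := one_mul _)
    (by simp)
    (by
      refine Eventually.of_forall fun t _ x _ => ?_
      have h1 : HasDerivAt (fun x : ℝ => t ^ 2 * x) (t ^ 2) x := by
        simpa using (hasDerivAt_id x).const_mul (t ^ 2)
      have h2 : HasDerivAt (fun x : ℝ => Φ (t ^ 2 * x)) (deriv Φ (t ^ 2 * x) * t ^ 2) x :=
        (hd (t ^ 2 * x)).hasDerivAt.comp x h1
      have h3 := h2.const_mul (t ^ k)
      exact h3.congr_deriv (by ring))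
  exact key.2

theorem avg_deriv (k : ℕ) {Φ : ℝ → ℝ} (h : ContDiff ℝ 1 Φ) :
    deriv (avg k Φ) = avg (k + 2) (deriv Φ) :=
  funext fun s => (avg_hasDerivAt k h s).deriv

theorem avg_contDiff_nat (n : ℕ) : ∀ (k : ℕ) {Φ : ℝ → ℝ}, ContDiff ℝ n Φ →
    ContDiff ℝ n (avg k Φ) := by
  induction n with
  | zero =>
    intro k Φ h
    simp only [Nat.cast_zero, contDiff_zero] at h ⊢
    exact avg_continuous k h
  | succ n ih =>
    intro k Φ h
    have h1 : ContDiff ℝ 1 Φ := h.of_le (by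
      have : (1 : ℕ) ≤ n + 1 := by omega
      exact_mod_cast this)
    have e : ((n + 1 : ℕ) : WithTop ℕ∞) = (n : WithTop ℕ∞) + 1 := by norm_cast
    rw [e] at h ⊢
    rw [contDiff_succ_iff_deriv] at h ⊢
    refine ⟨fun s => (avg_hasDerivAt k h1 s).differentiableAt, by simp, ?_⟩
    rw [avg_deriv k h1]
    exact ih _ h.2.2

/-- The basic identity: `f = avg k Φ` solves `(k+1) f + 2 s f' = Φ`. -/
theorem avg_identity (k : ℕ) {Φ : ℝ → ℝ} (h : ContDiff ℝ 1 Φ) (s : ℝ) :
    ((k : ℝ) + 1) * avg k Φ s + 2 * s * deriv (avg k Φ) s = Φ s := by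
  have hd : Differentiable ℝ Φ := h.differentiable (by norm_num)
  have hc : Continuous (deriv Φ) := h.continuous_deriv (by norm_num)
  rw [avg_deriv k h]
  have hder : ∀ t : ℝ, HasDerivAt (fun t : ℝ => t ^ (k + 1) * Φ (t ^ 2 * s))
      (((k : ℝ) + 1) * (t ^ k * Φ (t ^ 2 * s)) +
        2 * s * (t ^ (k + 2) * deriv Φ (t ^ 2 * s))) t := by
    intro t
    have h1 : HasDerivAt (fun t : ℝ => t ^ 2 * s) (2 * t * s) t := by
      have := (hasDerivAt_pow 2 t).mul_const s
      simpa using this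
    have h2 : HasDerivAt (fun t : ℝ => Φ (t ^ 2 * s)) (deriv Φ (t ^ 2 * s) * (2 * t * s)) t :=
      (hd (t ^ 2 * s)).hasDerivAt.comp t h1
    have h3 : HasDerivAt (fun t : ℝ => t ^ (k + 1)) (((k : ℝ) + 1) * t ^ k) t := by
      have := hasDerivAt_pow (k + 1) t
      simpa using this
    exact (h3.mul h2).congr_deriv (by ring)
  have hint : ∫ t in (0 : ℝ)..1, (((k : ℝ) + 1) * (t ^ k * Φ (t ^ 2 * s)) +
        2 * s * (t ^ (k + 2) * deriv Φ (t ^ 2 * s))) = Φ s := by
    rw [integral_eq_sub_of_hasDerivAt (fun t _ => hder t)]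
    · simp
    · apply Continuous.intervalIntegrable
      have := h.continuous
      fun_prop
  rw [intervalIntegral.integral_add, intervalIntegral.integral_const_mul,
    intervalIntegral.integral_const_mul] at hint
  · exact hint
  · apply Continuous.intervalIntegrable
    have := h.continuous
    fun_prop
  · apply Continuous.intervalIntegrable
    fun_prop

theorem integral_pow_unit (k : ℕ) : ∫ t in (0 : ℝ)..1, t ^ k = 1 / ((k : ℝ) + 1) := by
  rw [integral_pow]; simp

/-- Upper bound. -/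
theorem avg_le (k : ℕ) {Φ : ℝ → ℝ} (h : Continuous Φ) (s C : ℝ)
    (hC : ∀ t ∈ Icc (0 : ℝ) 1, Φ (t ^ 2 * s) ≤ C) : avg k Φ s ≤ C / ((k : ℝ) + 1) := by
  have h1 : avg k Φ s ≤ ∫ t in (0 : ℝ)..1, t ^ k * C := by
    unfold avg
    apply intervalIntegral.integral_mono_on zero_le_one
    · apply Continuous.intervalIntegrable; fun_prop
    · apply Continuous.intervalIntegrable; fun_prop
    · intro t ht
      exact mul_le_mul_of_nonneg_left (hC t ht) (pow_nonneg ht.1 _)
  rw [intervalIntegral.integral_mul_const, integral_pow_unit] at h1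
  calc avg k Φ s ≤ 1 / ((k : ℝ) + 1) * C := h1
    _ = C / ((k : ℝ) + 1) := by ring

/-- Lower bound. -/
theorem le_avg (k : ℕ) {Φ : ℝ → ℝ} (h : Continuous Φ) (s C : ℝ)
    (hC : ∀ t ∈ Icc (0 : ℝ) 1, C ≤ Φ (t ^ 2 * s)) : C / ((k : ℝ) + 1) ≤ avg k Φ s := by
  have h1 : ∫ t in (0 : ℝ)..1, t ^ k * C ≤ avg k Φ s := by
    unfold avg
    apply intervalIntegral.integral_mono_on zero_le_one
    · apply Continuous.intervalIntegrable; fun_prop
    · apply Continuous.intervalIntegrable; fun_prop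
    · intro t ht
      exact mul_le_mul_of_nonneg_left (hC t ht) (pow_nonneg ht.1 _)
  rw [intervalIntegral.integral_mul_const, integral_pow_unit] at h1
  calc C / ((k : ℝ) + 1) = 1 / ((k : ℝ) + 1) * C := by ring
    _ ≤ _ := h1

theorem avg_sub (k : ℕ) {Φ Ψ : ℝ → ℝ} (h : Continuous Φ) (h' : Continuous Ψ) (s : ℝ) :
    avg k Φ s - avg k Ψ s = avg k (fun x => Φ x - Ψ x) s := by
  unfold avg
  rw [← intervalIntegral.integral_sub]
  · congr 1; ext t; ring
  · apply Continuous.intervalIntegrable; fun_prop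
  · apply Continuous.intervalIntegrable; fun_prop

/-- Lipschitz bound. -/
theorem abs_avg_sub_le (k : ℕ) {Φ Ψ : ℝ → ℝ} (h : Continuous Φ) (h' : Continuous Ψ) (s K : ℝ)
    (hK : ∀ t ∈ Icc (0 : ℝ) 1, |Φ (t * s) - Ψ (t * s)| ≤ K) :
    |avg k Φ s - avg k Ψ s| ≤ K := by
  have hK0 : 0 ≤ K := le_trans (abs_nonneg _) (hK 0 ⟨le_refl _, zero_le_one⟩)
  have hk : (1 : ℝ) ≤ (k : ℝ) + 1 := by
    have : (0 : ℝ) ≤ k := Nat.cast_nonneg k
    linarith
  have hdiv : K / ((k : ℝ) + 1) ≤ K := div_le_self hK0 hk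
  have hmem : ∀ t ∈ Icc (0 : ℝ) 1, t ^ 2 ∈ Icc (0 : ℝ) 1 := by
    intro t ht
    exact ⟨by positivity, by have := ht.1; have := ht.2; nlinarith⟩
  rw [avg_sub k h h', abs_le]
  constructor
  · have h1 : (-K) / ((k : ℝ) + 1) ≤ avg k (fun x => Φ x - Ψ x) s :=
      le_avg k (by fun_prop) s (-K) (fun t ht => (abs_le.mp (hK _ (hmem t ht))).1)
    have : (-K) / ((k : ℝ) + 1) = -(K / ((k : ℝ) + 1)) := by ring
    linarith
  · have h1 : avg k (fun x => Φ x - Ψ x) s ≤ K / ((k : ℝ) + 1) :=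
      avg_le k (by fun_prop) s K (fun t ht => (abs_le.mp (hK _ (hmem t ht))).2)
    linarith

/-- If two functions agree on the segment, the averages agree. -/
theorem avg_congr (k : ℕ) {Φ Ψ : ℝ → ℝ} (s : ℝ)
    (hK : ∀ t ∈ Icc (0 : ℝ) 1, Φ (t * s) = Ψ (t * s)) :
    avg k Φ s = avg k Ψ s := by
  unfold avg
  apply intervalIntegral.integral_congr
  intro t ht
  rw [uIcc_of_le zero_le_one] at ht
  have hmem : t ^ 2 ∈ Icc (0 : ℝ) 1 := ⟨by positivity, by have := ht.1; have := ht.2; nlinarith⟩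
  simp only
  rw [hK _ hmem]

end Vale.Agent.P252
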