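import Mathlib

/-!
Block matrices `[δ, γ vᵀ; γ v, α I + β v vᵀ]`.
-/

namespace Vale.Agent.P252

/-- The matrix `[δ, γ vᵀ; γ v, α I + β v vᵀ]`. -/
noncomputable def bm {m : ℕ} (δ γ α β : ℝ) (v : Fin m → ℝ) :
    Matrix (Fin (m + 1)) (Fin (m + 1)) ℝ :=
  Matrix.of fun i j =>
    Fin.cases (Fin.cases δ (fun l => γ * v l) j)
      (fun k => Fin.cases (γ * v k) (fun l => (if k = l then α else 0) + β * v k * v l) j) i

variable {m : ℕ} (δ γ α β : ℝ) (v : Fin m → ℝ)

@[simp] theorem bm_zero_zero : bm δ γ α β v 0 0 = δ := rfl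
@[simp] theorem bm_zero_succ (l : Fin m) : bm δ γ α β v 0 l.succ = γ * v l := rfl
@[simp] theorem bm_succ_zero (k : Fin m) : bm δ γ α β v k.succ 0 = γ * v k := rfl
@[simp] theorem bm_succ_succ (k l : Fin m) :
    bm δ γ α β v k.succ l.succ = (if k = l then α else 0) + β * v k * v l := rfl

theorem bm_mul_inv (s : ℝ) (hs : s = ∑ k, v k ^ 2) (D : ℝ)
    (hD : D = (α + β * s) * δ - γ ^ 2 * s) (hD0 : D ≠ 0) (hα : α ≠ 0) :
    bm δ γ α β v * bm ((α + β * s) / D) (-γ / D) (1 / α) ((γ ^ 2 - β * δ) / (α * D)) v = 1 := by
  ext i j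
  refine Fin.cases ?_ (fun k => ?_) i
  · refine Fin.cases ?_ (fun l => ?_) j
    · simp only [Matrix.mul_apply, Fin.sum_univ_succ, bm_zero_zero, bm_zero_succ, bm_succ_zero,
        Matrix.one_apply_eq]
      have : ∑ x, γ * v x * (-γ / D * v x) = (γ * (-γ / D)) * ∑ k, v k ^ 2 := by
        rw [Finset.mul_sum]
        exact Finset.sum_congr rfl fun x _ => by ring
      rw [this, ← hs]
      field_simp
      rw [hD]; ring
    · simp only [Matrix.mul_apply, Fin.sum_univ_succ, bm_zero_zero, bm_zero_succ, bm_succ_succ]
      rw [Matrix.one_apply_ne (Fin.succ_ne_zero l).symm]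
      have : ∑ x, γ * v x * ((if x = l then 1 / α else 0) + (γ ^ 2 - β * δ) / (α * D) * v x * v l)
          = γ * v l * (1 / α) + γ * ((γ ^ 2 - β * δ) / (α * D)) * v l * ∑ k, v k ^ 2 := by
        rw [Finset.mul_sum]
        have h1 : ∀ x, γ * v x * ((if x = l then 1 / α else 0)
            + (γ ^ 2 - β * δ) / (α * D) * v x * v l)
            = (if x = l then γ * v x * (1 / α) else 0)
              + γ * ((γ ^ 2 - β * δ) / (α * D)) * v l * v x ^ 2 := by
          intro x
          split_ifs <;> ring
        simp only [h1]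
        rw [Finset.sum_add_distrib]
        simp
      rw [this, ← hs]
      field_simp
      rw [hD]; ring
  · refine Fin.cases ?_ (fun l => ?_) j
    · simp only [Matrix.mul_apply, Fin.sum_univ_succ, bm_zero_zero, bm_succ_succ, bm_succ_zero]
      rw [Matrix.one_apply_ne (Fin.succ_ne_zero k)]
      have : ∑ x, ((if k = x then α else 0) + β * v k * v x) * (-γ / D * v x)
          = α * (-γ / D) * v k + β * v k * (-γ / D) * ∑ k, v k ^ 2 := by
        rw [Finset.mul_sum]
        have h1 : ∀ x, ((if k = x then α else 0) + β * v k * v x) * (-γ / D * v x)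
            = (if k = x then α * (-γ / D) * v x else 0) + β * v k * (-γ / D) * v x ^ 2 := by
          intro x
          split_ifs <;> ring
        simp only [h1]
        rw [Finset.sum_add_distrib]
        simp
      rw [this, ← hs]
      field_simp
      ring
    · simp only [Matrix.mul_apply, Fin.sum_univ_succ, bm_zero_succ, bm_succ_succ, bm_succ_zero]
      have : ∑ x, ((if k = x then α else 0) + β * v k * v x)
            * ((if x = l then 1 / α else 0) + (γ ^ 2 - β * δ) / (α * D) * v x * v l)
          = (if k = l then 1 else 0) + α * ((γ ^ 2 - β * δ) / (α * D)) * v k * v l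
            + β * v k * v l * (1 / α)
            + β * v k * ((γ ^ 2 - β * δ) / (α * D)) * v l * ∑ k, v k ^ 2 := by
        rw [Finset.mul_sum]
        have h1 : ∀ x, ((if k = x then α else 0) + β * v k * v x)
            * ((if x = l then 1 / α else 0) + (γ ^ 2 - β * δ) / (α * D) * v x * v l)
            = (if k = x then (if k = l then 1 else 0) else 0)
              + (if k = x then α * ((γ ^ 2 - β * δ) / (α * D)) * v x * v l else 0)
              + (if x = l then β * v k * v x * (1 / α) else 0)
              + β * v k * ((γ ^ 2 - β * δ) / (α * D)) * v l * v x ^ 2 := by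
          intro x
          by_cases hkx : k = x
          · subst hkx
            by_cases hkl : k = l
            · subst hkl
              simp only [if_true]
              field_simp
              ring
            · simp only [hkl, if_true, if_false]
              ring
          · by_cases hxl : x = l
            · subst hxl
              simp only [hkx, if_true, if_false]
              ring
            · simp only [hkx, hxl, if_false]
              ring
        simp only [h1]
        rw [Finset.sum_add_distrib, Finset.sum_add_distrib, Finset.sum_add_distrib]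
        simp
      rw [this, ← hs, Matrix.one_apply]
      have h2 : (k.succ = l.succ) ↔ k = l := Fin.succ_inj
      simp only [h2]
      have h3 : γ * v k * (-γ / D * v l) + (α * ((γ ^ 2 - β * δ) / (α * D)) * v k * v l
            + β * v k * v l * (1 / α)
            + β * v k * ((γ ^ 2 - β * δ) / (α * D)) * v l * s) = 0 := by
        field_simp
        rw [hD]; ring
      linarith

theorem bm_inv (s : ℝ) (hs : s = ∑ k, v k ^ 2) (D : ℝ)
    (hD : D = (α + β * s) * δ - γ ^ 2 * s) (hD0 : D ≠ 0) (hα : α ≠ 0) :
    (bm δ γ α β v)⁻¹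
      = bm ((α + β * s) / D) (-γ / D) (1 / α) ((γ ^ 2 - β * δ) / (α * D)) v :=
  Matrix.inv_eq_right_inv (bm_mul_inv δ γ α β v s hs D hD hD0 hα)

theorem bm_trace (δ' γ' α' β' : ℝ) (s : ℝ) (hs : s = ∑ k, v k ^ 2) :
    ∑ i, ∑ j, bm δ γ α β v i j * bm δ' γ' α' β' v i j
      = δ * δ' + 2 * γ * γ' * s + m * α * α' + (α * β' + β * α') * s + β * β' * s ^ 2 := by
  simp only [Fin.sum_univ_succ, bm_zero_zero, bm_zero_succ, bm_succ_zero, bm_succ_succ]
  have h1 : ∑ x, γ * v x * (γ' * v x) = γ * γ' * s := by
    rw [hs, Finset.mul_sum]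
    exact Finset.sum_congr rfl fun x _ => by ring
  have h2 : ∀ k, ∑ l, ((if k = l then α else 0) + β * v k * v l)
      * ((if k = l then α' else 0) + β' * v k * v l)
      = α * α' + (α * β' + β * α') * v k ^ 2 + β * β' * s * v k ^ 2 := by
    intro k
    have h3 : ∀ l, ((if k = l then α else 0) + β * v k * v l)
      * ((if k = l then α' else 0) + β' * v k * v l)
      = (if k = l then α * α' + (α * β' + β * α') * v l ^ 2 else 0)
        + β * β' * v k ^ 2 * v l ^ 2 := by
      intro l
      split_ifs with h
      · subst h; ring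
      · ring
    simp only [h3]
    rw [Finset.sum_add_distrib, ← Finset.mul_sum, ← hs]
    simp
    ring
  simp only [h2]
  rw [Finset.sum_add_distrib, Finset.sum_add_distrib, Finset.sum_add_distrib,
    h1]
  have h5 : ∑ x, (α * β' + β * α') * v x ^ 2 = (α * β' + β * α') * s := by
    rw [← Finset.mul_sum, ← hs]
  have h6 : ∑ x, β * β' * s * v x ^ 2 = β * β' * s * s := by
    rw [← Finset.mul_sum, ← hs]
  rw [h5, h6]
  simp
  ring

theorem bm_det (hm : 1 ≤ m) (s : ℝ) (hs : s = ∑ k, v k ^ 2) (hα : α ≠ 0) :
    (bm δ γ α β v).det = α ^ (m - 1) * ((α + β * s) * δ - γ ^ 2 * s) := by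
  -- `bm = α (1 + A * B)` with `A : (m+1) × 2`, `B : 2 × (m+1)`
  let A : Matrix (Fin (m + 1)) (Fin 2) ℝ :=
    Matrix.of fun i j => Fin.cases (if j = 0 then 1 else 0) (fun k => if j = 0 then 0 else v k) i
  let B : Matrix (Fin 2) (Fin (m + 1)) ℝ :=
    Matrix.of fun j i => Fin.cases (if j = 0 then (δ - α) / α else γ / α)
      (fun k => if j = 0 then γ / α * v k else β / α * v k) i
  have hAB : bm δ γ α β v = α • (1 + A * B) := by
    ext i j
    refine Fin.cases ?_ (fun k => ?_) i
    · refine Fin.cases ?_ (fun l => ?_) j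
      · simp [A, B, Matrix.mul_apply, Fin.sum_univ_two]
        field_simp
        ring
      · rw [Matrix.smul_apply, Matrix.add_apply, Matrix.one_apply_ne (Fin.succ_ne_zero l).symm]
        simp [A, B, Matrix.mul_apply, Fin.sum_univ_two]
        field_simp
    · refine Fin.cases ?_ (fun l => ?_) j
      · rw [Matrix.smul_apply, Matrix.add_apply, Matrix.one_apply_ne (Fin.succ_ne_zero k)]
        simp [A, B, Matrix.mul_apply, Fin.sum_univ_two]
        field_simp
      · rw [Matrix.smul_apply, Matrix.add_apply, Matrix.one_apply]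
        have h2 : (k.succ = l.succ) ↔ k = l := Fin.succ_inj
        simp only [h2]
        simp [A, B, Matrix.mul_apply, Fin.sum_univ_two]
        split_ifs
        · field_simp
        · field_simp
          ring
  have hdet2 : (1 + B * A).det = (1 + (δ - α) / α) * (1 + β / α * s) - γ / α * s * (γ / α) := by
    rw [Matrix.det_fin_two]
    have e00 : ((1 : Matrix (Fin 2) (Fin 2) ℝ) + B * A) 0 0 = 1 + (δ - α) / α := by
      simp [A, B, Matrix.mul_apply, Fin.sum_univ_succ]
    have e11 : ((1 : Matrix (Fin 2) (Fin 2) ℝ) + B * A) 1 1 = 1 + β / α * s := by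
      simp [A, B, Matrix.mul_apply, Fin.sum_univ_succ]
      rw [hs, Finset.mul_sum]
      exact Finset.sum_congr rfl fun x _ => by ring
    have e01 : ((1 : Matrix (Fin 2) (Fin 2) ℝ) + B * A) 0 1 = γ / α * s := by
      simp [A, B, Matrix.mul_apply, Fin.sum_univ_succ]
      rw [hs, Finset.mul_sum]
      exact Finset.sum_congr rfl fun x _ => by ring
    have e10 : ((1 : Matrix (Fin 2) (Fin 2) ℝ) + B * A) 1 0 = γ / α := by
      simp [A, B, Matrix.mul_apply, Fin.sum_univ_succ]
    rw [e00, e11, e01, e10]
  rw [hAB, Matrix.det_smul, Matrix.det_one_add_mul_comm, hdet2]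
  obtain ⟨k, rfl⟩ : ∃ k, m = k + 1 := ⟨m - 1, by omega⟩
  simp only [Fintype.card_fin, Nat.add_sub_cancel]
  field_simp
  ring

theorem bm_posDef (s : ℝ) (hs : s = ∑ k, v k ^ 2) (hα : 0 < α) (hδ : 0 < δ)
    (hD : 0 < (α + β * s) * δ - γ ^ 2 * s) : (bm δ γ α β v).PosDef := by
  apply Matrix.PosDef.of_dotProduct_mulVec_pos
  · ext i j
    rw [Matrix.conjTranspose_apply]
    refine Fin.cases ?_ (fun k => ?_) i
    · refine Fin.cases ?_ (fun l => ?_) j
      · simp
      · simp
    · refine Fin.cases ?_ (fun l => ?_) j
      · simp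
      · simp only [bm_succ_succ, star_trivial]
        by_cases h : k = l
        · subst h; simp
        · simp [h, Ne.symm h]; ring
  · intro z hz
    set t := ∑ k : Fin m, v k * z k.succ with ht
    set r := ∑ k : Fin m, z k.succ ^ 2 with hr
    have hcs : t ^ 2 ≤ s * r := by
      rw [ht, hs, hr]
      exact Finset.sum_mul_sq_le_sq_mul_sq _ _ _
    have hr0 : 0 ≤ r := Finset.sum_nonneg fun k _ => sq_nonneg _
    have hQ : star z ⬝ᵥ (Matrix.mulVec (bm δ γ α β v) z)
        = δ * z 0 ^ 2 + 2 * γ * z 0 * t + β * t ^ 2 + α * r := by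
      simp only [dotProduct, Matrix.mulVec, Fin.sum_univ_succ, bm_zero_zero, bm_zero_succ,
        bm_succ_zero, bm_succ_succ, Pi.star_apply, star_trivial]
      have h1 : ∑ x : Fin m, γ * v x * z x.succ = γ * t := by
        rw [ht, Finset.mul_sum]
        exact Finset.sum_congr rfl fun x _ => by ring
      have h2 : ∀ k : Fin m, ∑ x : Fin m, ((if k = x then α else 0) + β * v k * v x) * z x.succ
          = α * z k.succ + β * v k * t := by
        intro k
        have h3 : ∀ x : Fin m, ((if k = x then α else 0) + β * v k * v x) * z x.succ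
            = (if k = x then α * z x.succ else 0) + β * v k * (v x * z x.succ) := by
          intro x
          split_ifs <;> ring
        simp only [h3]
        rw [Finset.sum_add_distrib, ← Finset.mul_sum, ← ht]
        simp
      simp only [h2, h1]
      have h4 : ∑ k : Fin m, z k.succ * (γ * v k * z 0 + (α * z k.succ + β * v k * t))
          = γ * z 0 * t + α * r + β * t * t := by
        have h5 : ∀ k : Fin m, z k.succ * (γ * v k * z 0 + (α * z k.succ + β * v k * t))
            = γ * z 0 * (v k * z k.succ) + α * z k.succ ^ 2 + β * t * (v k * z k.succ) := by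
          intro k; ring
        simp only [h5]
        rw [Finset.sum_add_distrib, Finset.sum_add_distrib, ← Finset.mul_sum, ← Finset.mul_sum,
          ← Finset.mul_sum]
      rw [h4]
      ring
    rw [hQ]
    have hs0 : 0 ≤ s := by rw [hs]; exact Finset.sum_nonneg fun k _ => sq_nonneg _
    have key : 0 < δ * (δ * z 0 ^ 2 + 2 * γ * z 0 * t + β * t ^ 2 + α * r) := by
      have e : δ * (δ * z 0 ^ 2 + 2 * γ * z 0 * t + β * t ^ 2 + α * r)
          = (δ * z 0 + γ * t) ^ 2 + (β * δ - γ ^ 2) * t ^ 2 + α * δ * r := by ring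
      rw [e]
      rcases hr0.lt_or_eq with hrpos | hr00
      · rcases le_or_gt 0 (β * δ - γ ^ 2) with h | h
        · have := mul_pos (mul_pos hα hδ) hrpos
          have h6 := mul_nonneg h (sq_nonneg t)
          have h7 := sq_nonneg (δ * z 0 + γ * t)
          linarith
        · have h6 : (β * δ - γ ^ 2) * (s * r) ≤ (β * δ - γ ^ 2) * t ^ 2 :=
            mul_le_mul_of_nonpos_left hcs h.le
          have h7 := sq_nonneg (δ * z 0 + γ * t)
          have h8 := mul_pos hD hrpos
          nlinarith
      · have hz' : ∀ k : Fin m, z k.succ = 0 := by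
          intro k
          have := (Finset.sum_eq_zero_iff_of_nonneg
            (fun k _ => sq_nonneg (z (Fin.succ k)))).1 (hr.symm.trans hr00.symm) k
            (Finset.mem_univ k)
          exact pow_eq_zero_iff (two_ne_zero) |>.1 this
        have ht0 : t = 0 := by
          rw [ht]; exact Finset.sum_eq_zero fun k _ => by rw [hz' k, mul_zero]
        have hz0 : z 0 ≠ 0 := by
          intro h0
          apply hz
          ext i
          refine Fin.cases ?_ (fun k => ?_) i
          · simpa using h0
          · simpa using hz' k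
        rw [ht0, ← hr00]
        have : 0 < (δ * z 0) ^ 2 := by positivity
        simpa using this
    exact (mul_pos_iff_of_pos_left hδ).1 key

end Vale.Agent.P252
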