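import Mathlib

/-!
A smooth clamp `χ : ℝ → ℝ` with `χ = id` on `[1/2, M]`, values in `[1/4, M+1]`, `1`-Lipschitz.
-/

namespace Vale.Agent.P252

open MeasureTheory intervalIntegral Set Filter Topology
open scoped ContDiff

theorem exists_clamp (M : ℝ) (hM : 1 ≤ M) : ∃ χ : ℝ → ℝ, ContDiff ℝ ∞ χ ∧
    (∀ x, 1 / 4 ≤ χ x) ∧ (∀ x, χ x ≤ M + 1) ∧ (∀ x y, |χ x - χ y| ≤ |x - y|) ∧
    (∀ x, 1 / 2 ≤ x → x ≤ M → χ x = x) := by
  let c : ℝ := (M + 1 / 2) / 2
  let ρ : ContDiffBump c :=
    { rIn := (M - 1 / 2) / 2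
      rOut := (M - 1 / 2) / 2 + 1 / 4
      rIn_pos := by linarith
      rIn_lt_rOut := by linarith }
  have hρc : Continuous ρ := ρ.continuous
  have hρ1 : ∀ x, 1 / 2 ≤ x → x ≤ M → ρ x = 1 := by
    intro x h1 h2
    apply ρ.one_of_mem_closedBall
    rw [Metric.mem_closedBall, Real.dist_eq, abs_le]
    show -((M - 1 / 2) / 2) ≤ x - (M + 1 / 2) / 2 ∧ x - (M + 1 / 2) / 2 ≤ (M - 1 / 2) / 2
    constructor <;> linarith
  have hρ0 : ∀ x, x ≤ 1 / 4 → ρ x = 0 := by
    intro x h1
    apply ρ.zero_of_le_dist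
    rw [Real.dist_eq, le_abs]
    right
    show (M - 1 / 2) / 2 + 1 / 4 ≤ -(x - (M + 1 / 2) / 2)
    linarith
  have hρ0' : ∀ x, M + 1 / 4 ≤ x → ρ x = 0 := by
    intro x h1
    apply ρ.zero_of_le_dist
    rw [Real.dist_eq, le_abs]
    left
    show (M - 1 / 2) / 2 + 1 / 4 ≤ x - (M + 1 / 2) / 2
    linarith
  let χ : ℝ → ℝ := fun x => 1 + ∫ t in (1 : ℝ)..x, ρ t
  have hder : ∀ x, HasDerivAt χ (ρ x) x := by
    intro x
    exact (intervalIntegral.integral_hasDerivAt_right (hρc.intervalIntegrable _ _)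
      (hρc.stronglyMeasurableAtFilter _ _) hρc.continuousAt).const_add 1
  have hderiv : deriv χ = ρ := funext fun x => (hder x).deriv
  have hsmooth : ContDiff ℝ ∞ χ := by
    rw [contDiff_infty_iff_deriv]
    refine ⟨fun x => (hder x).differentiableAt, ?_⟩
    rw [hderiv]
    exact ρ.contDiff
  have hmono : Monotone χ := by
    apply monotone_of_deriv_nonneg (fun x => (hder x).differentiableAt)
    intro x
    rw [(hder x).deriv]
    exact ρ.nonneg
  have hLip : ∀ x y, |χ x - χ y| ≤ |x - y| := by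
    intro x y
    have e : χ x - χ y = ∫ t in y..x, ρ t := by
      show (1 + ∫ t in (1 : ℝ)..x, ρ t) - (1 + ∫ t in (1 : ℝ)..y, ρ t) = _
      rw [add_sub_add_left_eq_sub, intervalIntegral.integral_interval_sub_left
        (hρc.intervalIntegrable _ _) (hρc.intervalIntegrable _ _)]
    rw [e]
    have := intervalIntegral.norm_integral_le_of_norm_le_const (a := y) (b := x) (C := 1)
      (f := ρ) (fun t _ => by
        rw [Real.norm_eq_abs, abs_of_nonneg ρ.nonneg]
        exact ρ.le_one)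
    simpa using this
  have h1 : χ 1 = 1 := by simp [χ]
  have hid : ∀ x, 1 / 2 ≤ x → x ≤ M → χ x = x := by
    intro x hx1 hx2
    show 1 + ∫ t in (1 : ℝ)..x, ρ t = x
    have : ∫ t in (1 : ℝ)..x, ρ t = ∫ t in (1 : ℝ)..x, (1 : ℝ) := by
      apply intervalIntegral.integral_congr
      intro t ht
      rcases le_total 1 x with h | h
      · rw [uIcc_of_le h] at ht
        exact hρ1 t (by linarith [ht.1]) (ht.2.trans hx2)
      · rw [uIcc_of_ge h] at ht
        exact hρ1 t (hx1.trans ht.1) (ht.2.trans hM)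
    rw [this]
    simp
  have hlow : ∀ x, x ≤ 1 / 4 → χ x = χ (1 / 4) := by
    intro x hx
    have e : χ (1 / 4) - χ x = ∫ t in x..(1 / 4 : ℝ), ρ t := by
      show (1 + ∫ t in (1 : ℝ)..(1/4), ρ t) - (1 + ∫ t in (1 : ℝ)..x, ρ t) = _
      rw [add_sub_add_left_eq_sub, intervalIntegral.integral_interval_sub_left
        (hρc.intervalIntegrable _ _) (hρc.intervalIntegrable _ _)]
    have : ∫ t in x..(1 / 4 : ℝ), ρ t = ∫ t in x..(1 / 4 : ℝ), (0 : ℝ) := by
      apply intervalIntegral.integral_congr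
      intro t ht
      rw [uIcc_of_le hx] at ht
      exact hρ0 t ht.2
    rw [this] at e
    simp at e
    linarith
  have hhigh : ∀ x, M + 1 / 4 ≤ x → χ x = χ (M + 1 / 4) := by
    intro x hx
    have e : χ x - χ (M + 1 / 4) = ∫ t in (M + 1 / 4)..x, ρ t := by
      show (1 + ∫ t in (1 : ℝ)..x, ρ t) - (1 + ∫ t in (1 : ℝ)..(M + 1 / 4), ρ t) = _
      rw [add_sub_add_left_eq_sub, intervalIntegral.integral_interval_sub_left
        (hρc.intervalIntegrable _ _) (hρc.intervalIntegrable _ _)]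
    have : ∫ t in (M + 1 / 4)..x, ρ t = ∫ t in (M + 1 / 4)..x, (0 : ℝ) := by
      apply intervalIntegral.integral_congr
      intro t ht
      rw [uIcc_of_le hx] at ht
      exact hρ0' t ht.1
    rw [this] at e
    simp at e
    linarith
  refine ⟨χ, hsmooth, ?_, ?_, hLip, hid⟩
  · have h4 : 1 / 4 ≤ χ (1 / 4) := by
      have h := hLip 1 (1 / 4)
      rw [h1] at h
      have h5 := (abs_le.mp h).2
      have h6 : |(1 : ℝ) - 1 / 4| = 3 / 4 := by rw [abs_of_pos] <;> norm_num
      rw [h6] at h5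
      linarith
    intro x
    rcases le_total x (1 / 4) with hx | hx
    · rw [hlow x hx]; exact h4
    · exact h4.trans (hmono hx)
  · have h4 : χ (M + 1 / 4) ≤ M + 1 := by
      have h := hLip (M + 1 / 4) 1
      rw [h1] at h
      have h5 := (abs_le.mp h).2
      have h6 : |(M + 1 / 4) - 1| = M - 3 / 4 := by rw [abs_of_pos] <;> linarith
      rw [h6] at h5
      linarith
    intro x
    rcases le_total (M + 1 / 4) x with hx | hx
    · rw [hhigh x hx]; exact h4
    · exact (hmono hx).trans h4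

end Vale.Agent.P252
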