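import Mathlib

/-!
Definitions for the affine Bernstein problem (P252).
-/

namespace Vale.Agent.P252

open scoped ContDiff

/-- The Hessian matrix of a real function on `ℝⁿ`: the entry `(i,j)` is `∂_i ∂_j f (x)`. -/
noncomputable def hess {n : ℕ} (f : EuclideanSpace ℝ (Fin n) → ℝ)
    (x : EuclideanSpace ℝ (Fin n)) : Matrix (Fin n) (Fin n) ℝ :=
  Matrix.of fun i j =>
    fderiv ℝ (fun y => fderiv ℝ f y (EuclideanSpace.single j 1)) x (EuclideanSpace.single i 1)

/-- The function `w = (det D²u)^{-(n+1)/(n+2)}`. -/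
noncomputable def wdens {n : ℕ} (u : EuclideanSpace ℝ (Fin n) → ℝ)
    (x : EuclideanSpace ℝ (Fin n)) : ℝ :=
  (hess u x).det ^ (-((n : ℝ) + 1) / ((n : ℝ) + 2))

/-- The left-hand side `∑ U^{ij} ∂_{ij} w` of the affine maximal equation (AM), where
`U^{ij} = det(D²u) (D²u)^{-1}_{ij}`. -/
noncomputable def amOp {n : ℕ} (u : EuclideanSpace ℝ (Fin n) → ℝ)
    (x : EuclideanSpace ℝ (Fin n)) : ℝ :=
  ∑ i, ∑ j, ((hess u x).det * (hess u x)⁻¹ i j) * hess (wdens u) x i j

end Vale.Agent.P252
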