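import Mathlib

/-!
A global existence theorem and a uniqueness theorem for Volterra type functional equations
`X s = x₀ + ∫₀ˢ G[X]`.
-/

namespace Vale.Agent.P252

open MeasureTheory intervalIntegral Set Filter Topology BoundedContinuousFunction

variable {E : Type*} [NormedAddCommGroup E] [NormedSpace ℝ E]

/-- Integral of the weight. -/
theorem norm_integral_weight_le {f : ℝ → E} (hf : Continuous f) {lam C : ℝ} (hlam : 0 < lam)
    (hC : 0 ≤ C) (s : ℝ)
    (h : ∀ t, |t| ≤ |s| → ‖f t‖ ≤ C * Real.exp (lam * |t|)) :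
    ‖∫ t in (0 : ℝ)..s, f t‖ ≤ C / lam * Real.exp (lam * |s|) := by
  rcases le_total 0 s with hs | hs
  · have hb : ∀ t ∈ Ioc 0 s, ‖f t‖ ≤ C * Real.exp (lam * t) := by
      intro t ht
      have h1 : |t| ≤ |s| := by rw [abs_of_pos ht.1, abs_of_nonneg hs]; exact ht.2
      have := h t h1
      rwa [abs_of_pos ht.1] at this
    have h1 : ‖∫ t in (0 : ℝ)..s, f t‖ ≤ ∫ t in (0 : ℝ)..s, C * Real.exp (lam * t) := by
      apply intervalIntegral.norm_integral_le_of_norm_le hs
      · exact Eventually.of_forall fun t ht => hb t ht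
      · apply Continuous.intervalIntegrable; fun_prop
    have h2 : ∫ t in (0 : ℝ)..s, C * Real.exp (lam * t)
        = C / lam * Real.exp (lam * s) - C / lam := by
      have hd : ∀ t ∈ uIcc (0:ℝ) s, HasDerivAt (fun t => C / lam * Real.exp (lam * t))
          (C * Real.exp (lam * t)) t := by
        intro t _
        have h1 : HasDerivAt (fun t : ℝ => lam * t) lam t := by
          simpa using (hasDerivAt_id t).const_mul lam
        exact (h1.exp.const_mul (C / lam)).congr_deriv (by field_simp)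
      rw [integral_eq_sub_of_hasDerivAt hd (by apply Continuous.intervalIntegrable; fun_prop)]
      simp
    rw [h2] at h1
    rw [abs_of_nonneg hs]
    have : 0 ≤ C / lam := by positivity
    linarith
  · have hb : ∀ t ∈ Ioc s 0, ‖f t‖ ≤ C * Real.exp (lam * (-t)) := by
      intro t ht
      have h1 : |t| ≤ |s| := by rw [abs_of_nonpos ht.2, abs_of_nonpos hs]; linarith [ht.1]
      have := h t h1
      rwa [abs_of_nonpos ht.2] at this
    have h1 : ‖∫ t in s..(0 : ℝ), f t‖ ≤ ∫ t in s..(0 : ℝ), C * Real.exp (lam * (-t)) := by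
      apply intervalIntegral.norm_integral_le_of_norm_le hs
      · exact Eventually.of_forall fun t ht => hb t ht
      · apply Continuous.intervalIntegrable; fun_prop
    have h2 : ∫ t in s..(0 : ℝ), C * Real.exp (lam * (-t))
        = C / lam * Real.exp (lam * (-s)) - C / lam := by
      have hd : ∀ t ∈ uIcc s (0:ℝ), HasDerivAt (fun t => -(C / lam * Real.exp (lam * (-t))))
          (C * Real.exp (lam * (-t))) t := by
        intro t _
        have h1 : HasDerivAt (fun t : ℝ => lam * (-t)) (-lam) t := by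
          have := (hasDerivAt_neg t).const_mul lam
          exact this.congr_deriv (by ring)
        exact (h1.exp.const_mul (C / lam)).neg.congr_deriv (by field_simp)
      rw [integral_eq_sub_of_hasDerivAt hd (by apply Continuous.intervalIntegrable; fun_prop)]
      simp
      ring
    rw [h2] at h1
    rw [intervalIntegral.integral_symm, norm_neg, abs_of_nonpos hs]
    have : 0 ≤ C / lam := by positivity
    linarith

theorem volterra_exists [CompleteSpace E] (x0 : E) (G : (ℝ → E) → ℝ → E) (L B : ℝ) (hL : 0 ≤ L)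
    (hcont : ∀ X, Continuous X → Continuous (G X))
    (hB : ∀ X, Continuous X → ∀ s, ‖G X s‖ ≤ B)
    (hLip : ∀ X Y, Continuous X → Continuous Y → ∀ s K,
      (∀ t ∈ Icc (0 : ℝ) 1, ‖X (t * s) - Y (t * s)‖ ≤ K) → ‖G X s - G Y s‖ ≤ L * K) :
    ∃ X : ℝ → E, Continuous X ∧ ∀ s, X s = x0 + ∫ t in (0 : ℝ)..s, G X t := by
  have hB0 : 0 ≤ B := le_trans (norm_nonneg _) (hB (fun _ => 0) continuous_const 0)
  set lam : ℝ := 2 * L + 1 with hlam
  have hlam0 : 0 < lam := by positivity
  have hlam1 : 1 ≤ lam := by linarith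
  -- the unweighted function
  let up : (ℝ →ᵇ E) → ℝ → E := fun Y s => Real.exp (lam * |s|) • Y s
  have hup : ∀ Y, Continuous (up Y) := by
    intro Y
    have := Y.continuous
    show Continuous (fun s => Real.exp (lam * |s|) • Y s)
    fun_prop
  let T : (ℝ →ᵇ E) → ℝ → E := fun Y s =>
    Real.exp (-(lam * |s|)) • (x0 + ∫ t in (0 : ℝ)..s, G (up Y) t)
  have hTc : ∀ Y, Continuous (T Y) := by
    intro Y
    have h1 : Continuous (G (up Y)) := hcont _ (hup Y)
    have h2 : Continuous fun s : ℝ => ∫ t in (0 : ℝ)..s, G (up Y) t :=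
      intervalIntegral.continuous_primitive (fun a b => h1.intervalIntegrable a b) 0
    show Continuous (fun s => Real.exp (-(lam * |s|)) • (x0 + ∫ t in (0 : ℝ)..s, G (up Y) t))
    fun_prop
  have hTb : ∀ Y s, ‖T Y s‖ ≤ ‖x0‖ + B := by
    intro Y s
    have h1 : ‖∫ t in (0 : ℝ)..s, G (up Y) t‖ ≤ B * |s - 0| :=
      intervalIntegral.norm_integral_le_of_norm_le_const (fun t _ => hB _ (hup Y) t)
    rw [sub_zero] at h1
    show ‖Real.exp (-(lam * |s|)) • (x0 + ∫ t in (0 : ℝ)..s, G (up Y) t)‖ ≤ _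
    rw [norm_smul, Real.norm_eq_abs, abs_of_pos (Real.exp_pos _)]
    have h2 : ‖x0 + ∫ t in (0 : ℝ)..s, G (up Y) t‖ ≤ ‖x0‖ + B * |s| :=
      (norm_add_le _ _).trans (by linarith)
    have h3 : Real.exp (-(lam * |s|)) ≤ 1 := by
      rw [Real.exp_le_one_iff]
      have := mul_nonneg hlam0.le (abs_nonneg s)
      linarith
    have h4 : Real.exp (-(lam * |s|)) * |s| ≤ 1 := by
      have h5 : |s| ≤ Real.exp (lam * |s|) := by
        have := Real.add_one_le_exp (lam * |s|)
        have h6 : |s| ≤ lam * |s| := by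
          have := abs_nonneg s
          nlinarith
        linarith
      rw [Real.exp_neg, inv_mul_le_iff₀ (Real.exp_pos _), mul_one]
      exact h5
    calc Real.exp (-(lam * |s|)) * ‖x0 + ∫ t in (0 : ℝ)..s, G (up Y) t‖
        ≤ Real.exp (-(lam * |s|)) * (‖x0‖ + B * |s|) := by gcongr
      _ = Real.exp (-(lam * |s|)) * ‖x0‖ + B * (Real.exp (-(lam * |s|)) * |s|) := by ring
      _ ≤ 1 * ‖x0‖ + B * 1 := by gcongr
      _ = ‖x0‖ + B := by ring
  let Phi : (ℝ →ᵇ E) → (ℝ →ᵇ E) := fun Y =>
    BoundedContinuousFunction.ofNormedAddCommGroup (T Y) (hTc Y) (‖x0‖ + B) (hTb Y)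
  have hcontr : ∀ Y Z : ℝ →ᵇ E, dist (Phi Y) (Phi Z) ≤ (1 / 2) * dist Y Z := by
    intro Y Z
    rw [BoundedContinuousFunction.dist_le (by positivity)]
    intro s
    have hGY : Continuous (G (up Y)) := hcont _ (hup Y)
    have hGZ : Continuous (G (up Z)) := hcont _ (hup Z)
    have e1 : (Phi Y) s - (Phi Z) s = Real.exp (-(lam * |s|)) •
        ∫ t in (0 : ℝ)..s, (G (up Y) t - G (up Z) t) := by
      show T Y s - T Z s = _
      simp only [T]
      rw [← smul_sub, intervalIntegral.integral_sub (hGY.intervalIntegrable _ _)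
        (hGZ.intervalIntegrable _ _)]
      congr 1
      abel
    rw [dist_eq_norm, e1, norm_smul, Real.norm_eq_abs, abs_of_pos (Real.exp_pos _)]
    have h1 : ‖∫ t in (0 : ℝ)..s, (G (up Y) t - G (up Z) t)‖ ≤
        (L * dist Y Z) / lam * Real.exp (lam * |s|) := by
      apply norm_integral_weight_le (hGY.sub hGZ) hlam0 (by positivity)
      intro t _
      have h2 := hLip (up Y) (up Z) (hup Y) (hup Z) t (Real.exp (lam * |t|) * dist Y Z) (by
        intro r hr
        show ‖Real.exp (lam * |r * t|) • Y (r * t) - Real.exp (lam * |r * t|) • Z (r * t)‖ ≤ _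
        rw [← smul_sub, norm_smul, Real.norm_eq_abs, abs_of_pos (Real.exp_pos _)]
        have h3 : ‖Y (r * t) - Z (r * t)‖ ≤ dist Y Z := by
          rw [← dist_eq_norm]; exact BoundedContinuousFunction.dist_coe_le_dist _
        have h4 : |r * t| ≤ |t| := by
          rw [abs_mul, abs_of_nonneg hr.1]
          have := abs_nonneg t
          nlinarith [hr.2]
        gcongr)
      calc ‖G (up Y) t - G (up Z) t‖ ≤ L * (Real.exp (lam * |t|) * dist Y Z) := h2
        _ = L * dist Y Z * Real.exp (lam * |t|) := by ring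
    calc Real.exp (-(lam * |s|)) * ‖∫ t in (0 : ℝ)..s, (G (up Y) t - G (up Z) t)‖
        ≤ Real.exp (-(lam * |s|)) * ((L * dist Y Z) / lam * Real.exp (lam * |s|)) := by gcongr
      _ = (L / lam) * dist Y Z * (Real.exp (-(lam * |s|)) * Real.exp (lam * |s|)) := by ring
      _ = (L / lam) * dist Y Z := by rw [← Real.exp_add]; simp
      _ ≤ (1 / 2) * dist Y Z := by
          apply mul_le_mul_of_nonneg_right _ dist_nonneg
          rw [div_le_iff₀ hlam0]
          linarith
  have hCW : ContractingWith (1 / 2 : NNReal) Phi := by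
    refine ⟨by
      rw [← NNReal.coe_lt_coe]; norm_num, ?_⟩
    apply LipschitzWith.of_dist_le_mul
    intro Y Z
    have := hcontr Y Z
    simpa using this
  let Y := hCW.fixedPoint
  have hY : Phi Y = Y := hCW.fixedPoint_isFixedPt
  refine ⟨up Y, hup Y, fun s => ?_⟩
  have h1 : Y s = T Y s := by
    conv_lhs => rw [← hY]
    rfl
  show Real.exp (lam * |s|) • Y s = _
  rw [h1]
  show Real.exp (lam * |s|) • (Real.exp (-(lam * |s|)) • (x0 + ∫ t in (0 : ℝ)..s, G (up Y) t)) = _
  rw [smul_smul, ← Real.exp_add]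
  simp

theorem volterra_unique (x0 : E) (G : (ℝ → E) → ℝ → E) (L S : ℝ) (hL : 0 ≤ L)
    (hcont : ∀ X, Continuous X → Continuous (G X))
    (hLip : ∀ X Y, Continuous X → Continuous Y → ∀ s K,
      (∀ t ∈ Icc (0 : ℝ) 1, ‖X (t * s) - Y (t * s)‖ ≤ K) → ‖G X s - G Y s‖ ≤ L * K)
    (X Y : ℝ → E) (hX : Continuous X) (hY : Continuous Y)
    (hXe : ∀ s ∈ Icc 0 S, X s = x0 + ∫ t in (0 : ℝ)..s, G X t)
    (hYe : ∀ s ∈ Icc 0 S, Y s = x0 + ∫ t in (0 : ℝ)..s, G Y t) :
    ∀ s ∈ Icc 0 S, X s = Y s := by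
  intro s hs
  have hS : 0 ≤ S := hs.1.trans hs.2
  set lam : ℝ := 2 * L + 1 with hlam
  have hlam0 : 0 < lam := by positivity
  obtain ⟨s1, hs1, hmax⟩ := (isCompact_Icc (a := (0:ℝ)) (b := S)).exists_isMaxOn
    ⟨0, ⟨le_refl _, hS⟩⟩
    (f := fun s => Real.exp (-(lam * s)) * ‖X s - Y s‖) (by
      apply Continuous.continuousOn
      fun_prop)
  set K := Real.exp (-(lam * s1)) * ‖X s1 - Y s1‖ with hK
  have hK0 : 0 ≤ K := by positivity
  have hle : ∀ t ∈ Icc 0 S, ‖X t - Y t‖ ≤ K * Real.exp (lam * t) := by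
    intro t ht
    have h1 : Real.exp (-(lam * t)) * ‖X t - Y t‖ ≤ K := hmax ht
    rw [Real.exp_neg, inv_mul_le_iff₀ (Real.exp_pos _)] at h1
    linarith
  have hGX := hcont X hX
  have hGY := hcont Y hY
  -- estimate at s1
  have h2 : ‖X s1 - Y s1‖ ≤ (L * K) / lam * Real.exp (lam * |s1|) := by
    rw [hXe s1 hs1, hYe s1 hs1]
    have e : (x0 + ∫ t in (0 : ℝ)..s1, G X t) - (x0 + ∫ t in (0 : ℝ)..s1, G Y t)
        = ∫ t in (0 : ℝ)..s1, (G X t - G Y t) := by
      rw [intervalIntegral.integral_sub (hGX.intervalIntegrable _ _)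
        (hGY.intervalIntegrable _ _)]
      abel
    rw [e]
    -- replace the integrand outside [0,s1] is irrelevant
    have hb : ∀ t ∈ Ioc 0 s1, ‖G X t - G Y t‖ ≤ (L * K) * Real.exp (lam * t) := by
      intro t ht
      have h3 := hLip X Y hX hY t (K * Real.exp (lam * t)) (by
        intro r hr
        have hrt : r * t ∈ Icc 0 S := by
          refine ⟨mul_nonneg hr.1 ht.1.le, ?_⟩
          have h5 : r * t ≤ 1 * t := mul_le_mul_of_nonneg_right hr.2 ht.1.le
          linarith [ht.2, hs1.2]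
        have h4 := hle _ hrt
        refine h4.trans ?_
        have h5 : r * t ≤ t := by
          have h5 : r * t ≤ 1 * t := mul_le_mul_of_nonneg_right hr.2 ht.1.le
          linarith
        gcongr)
      calc _ ≤ _ := h3
        _ = _ := by ring
    have h1 : ‖∫ t in (0 : ℝ)..s1, (G X t - G Y t)‖
        ≤ ∫ t in (0 : ℝ)..s1, (L * K) * Real.exp (lam * t) := by
      apply intervalIntegral.norm_integral_le_of_norm_le hs1.1
      · exact Eventually.of_forall fun t ht => hb t ht
      · apply Continuous.intervalIntegrable; fun_prop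
    have h2 : ∫ t in (0 : ℝ)..s1, (L * K) * Real.exp (lam * t)
        = (L * K) / lam * Real.exp (lam * s1) - (L * K) / lam := by
      have hd : ∀ t ∈ uIcc (0:ℝ) s1, HasDerivAt (fun t => (L * K) / lam * Real.exp (lam * t))
          ((L * K) * Real.exp (lam * t)) t := by
        intro t _
        have h1 : HasDerivAt (fun t : ℝ => lam * t) lam t := by
          simpa using (hasDerivAt_id t).const_mul lam
        exact (h1.exp.const_mul ((L * K) / lam)).congr_deriv (by field_simp)
      rw [integral_eq_sub_of_hasDerivAt hd (by apply Continuous.intervalIntegrable; fun_prop)]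
      simp
    rw [h2] at h1
    rw [abs_of_nonneg hs1.1]
    have : 0 ≤ (L * K) / lam := by positivity
    linarith
  have h3 : K ≤ K / 2 := by
    rw [abs_of_nonneg hs1.1] at h2
    calc K = Real.exp (-(lam * s1)) * ‖X s1 - Y s1‖ := hK
      _ ≤ Real.exp (-(lam * s1)) * ((L * K) / lam * Real.exp (lam * s1)) := by gcongr
      _ = (L / lam) * K * (Real.exp (-(lam * s1)) * Real.exp (lam * s1)) := by ring
      _ = (L / lam) * K := by rw [← Real.exp_add]; simp
      _ ≤ (1 / 2) * K := by
          apply mul_le_mul_of_nonneg_right _ hK0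
          rw [div_le_iff₀ hlam0]
          linarith
      _ = K / 2 := by ring
  have hK00 : K = 0 := by linarith
  have h4 := hle s hs
  rw [hK00, zero_mul] at h4
  have : X s - Y s = 0 := norm_le_zero_iff.mp h4
  exact sub_eq_zero.mp this

end Vale.Agent.P252
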