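import Vale.Agent.P252.Avg
import Vale.Agent.P252.Volterra
import Vale.Agent.P252.Clamp

/-!
The functional `G` and the global solution of the clamped equation.
We write `m = k + 1`.
-/

namespace Vale.Agent.P252

open MeasureTheory intervalIntegral Set Filter Topology
open scoped ContDiff

/-- `F₁ = χ(V) χ(J)^{m+3}`. -/
noncomputable def fOne (k : ℕ) (χ : ℝ → ℝ) (X : ℝ → ℝ × ℝ) (s : ℝ) : ℝ :=
  χ (X s).1 * χ (X s).2 ^ (k + 4)

/-- `π = m ∫₀¹ t^{m-1} F₁(t² s) dt`. -/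
noncomputable def piF (k : ℕ) (χ : ℝ → ℝ) (X : ℝ → ℝ × ℝ) (s : ℝ) : ℝ :=
  ((k : ℝ) + 1) * avg k (fOne k χ X) s

/-- `c = ∫₀¹ t^{m-1} χ(J)(t² s) dt`. -/
noncomputable def cF (k : ℕ) (χ : ℝ → ℝ) (X : ℝ → ℝ × ℝ) (s : ℝ) : ℝ :=
  avg k (fun r => χ (X r).2) s

/-- The outer function. -/
noncomputable def gOut (k : ℕ) (z : ℝ × ℝ × ℝ) : ℝ × ℝ :=
  (1 / 2 * (((k : ℝ) + 1) * z.1) ^ (1 / ((k : ℝ) + 1)),
    1 / 2 * z.2.1 * (((k : ℝ) + 1) * z.1) ^ (-((k : ℝ) / ((k : ℝ) + 1))) * z.2.2 ^ (k + 4))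

/-- The functional. -/
noncomputable def gF (k : ℕ) (χ : ℝ → ℝ) (X : ℝ → ℝ × ℝ) (s : ℝ) : ℝ × ℝ :=
  gOut k (avg k (fOne k χ X) s, cF k χ X s, χ (X s).2)

section

variable {k : ℕ} {χ : ℝ → ℝ} {M : ℝ}

theorem gOut_contDiffAt (k : ℕ) (z : ℝ × ℝ × ℝ) (hz : 0 < z.1) (n : WithTop ℕ∞) :
    ContDiffAt ℝ n (gOut k) z := by
  have hk : (0 : ℝ) < (k : ℝ) + 1 := by positivity
  have h1 : ContDiffAt ℝ n (fun z : ℝ × ℝ × ℝ => ((k : ℝ) + 1) * z.1) z :=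
    contDiffAt_const.mul contDiffAt_fst
  have hne : ((k : ℝ) + 1) * z.1 ≠ 0 := by positivity
  have h2 : ContDiffAt ℝ n
      (fun z : ℝ × ℝ × ℝ => (((k : ℝ) + 1) * z.1) ^ (1 / ((k : ℝ) + 1))) z :=
    h1.rpow_const_of_ne hne
  have h3 : ContDiffAt ℝ n
      (fun z : ℝ × ℝ × ℝ => (((k : ℝ) + 1) * z.1) ^ (-((k : ℝ) / ((k : ℝ) + 1)))) z :=
    h1.rpow_const_of_ne hne
  have h4 : ContDiffAt ℝ n (fun z : ℝ × ℝ × ℝ => z.2.1) z :=
    contDiffAt_fst.comp z contDiffAt_snd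
  have h5 : ContDiffAt ℝ n (fun z : ℝ × ℝ × ℝ => z.2.2) z :=
    contDiffAt_snd.comp z contDiffAt_snd
  exact (contDiffAt_const.mul h2).prodMk
    (((contDiffAt_const.mul h4).mul h3).mul (h5.pow (k + 4)))

/-- Standing hypotheses on the clamp. -/
structure IsClamp (χ : ℝ → ℝ) (M : ℝ) : Prop where
  one_le : 1 ≤ M
  smooth : ContDiff ℝ ∞ χ
  low : ∀ x, 1 / 4 ≤ χ x
  high : ∀ x, χ x ≤ M + 1
  lip : ∀ x y, |χ x - χ y| ≤ |x - y|
  eq_self : ∀ x, 1 / 2 ≤ x → x ≤ M → χ x = x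

theorem exists_isClamp (M : ℝ) (hM : 1 ≤ M) : ∃ χ, IsClamp χ M := by
  obtain ⟨χ, h1, h2, h3, h4, h5⟩ := exists_clamp M hM
  exact ⟨χ, hM, h1, h2, h3, h4, h5⟩

theorem IsClamp.pos (h : IsClamp χ M) (x : ℝ) : 0 < χ x := by
  have := h.low x
  linarith

theorem IsClamp.continuous (h : IsClamp χ M) : Continuous χ := h.smooth.continuous

theorem fOne_continuous (h : IsClamp χ M) {X : ℝ → ℝ × ℝ} (hX : Continuous X) :
    Continuous (fOne k χ X) := by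
  have := h.continuous
  unfold fOne
  fun_prop

theorem fOne_low (h : IsClamp χ M) (X : ℝ → ℝ × ℝ) (s : ℝ) :
    (1 / 4 : ℝ) ^ (k + 5) ≤ fOne k χ X s := by
  unfold fOne
  have e : (1 / 4 : ℝ) ^ (k + 5) = (1 / 4) * (1 / 4) ^ (k + 4) := by ring
  rw [e]
  have h1 := h.low (X s).1
  have h2 := h.low (X s).2
  gcongr

theorem fOne_high (h : IsClamp χ M) (X : ℝ → ℝ × ℝ) (s : ℝ) :
    fOne k χ X s ≤ (M + 1) ^ (k + 5) := by
  unfold fOne
  have e : (M + 1) ^ (k + 5) = (M + 1) * (M + 1) ^ (k + 4) := by ring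
  rw [e]
  have h1 := h.high (X s).1
  have h2 := h.high (X s).2
  have h3 := h.pos (X s).1
  have h4 := h.pos (X s).2
  have := h.one_le
  gcongr

/-- Lower bound for the averages. -/
theorem avg_fOne_mem (h : IsClamp χ M) {X : ℝ → ℝ × ℝ} (hX : Continuous X) (s : ℝ) :
    avg k (fOne k χ X) s ∈
      Icc ((1 / 4 : ℝ) ^ (k + 5) / ((k : ℝ) + 1)) ((M + 1) ^ (k + 5) / ((k : ℝ) + 1)) :=
  ⟨le_avg k (fOne_continuous h hX) s _ fun t _ => fOne_low h X _,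
    avg_le k (fOne_continuous h hX) s _ fun t _ => fOne_high h X _⟩

theorem cF_mem (h : IsClamp χ M) {X : ℝ → ℝ × ℝ} (hX : Continuous X) (s : ℝ) :
    cF k χ X s ∈ Icc ((1 / 4 : ℝ) / ((k : ℝ) + 1)) ((M + 1) / ((k : ℝ) + 1)) := by
  have hc : Continuous fun r => χ (X r).2 := by
    have := h.continuous
    fun_prop
  exact ⟨le_avg k hc s _ fun t _ => h.low _, avg_le k hc s _ fun t _ => h.high _⟩

theorem avg_fOne_pos (h : IsClamp χ M) {X : ℝ → ℝ × ℝ} (hX : Continuous X) (s : ℝ) :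
    0 < avg k (fOne k χ X) s :=
  lt_of_lt_of_le (by positivity) (avg_fOne_mem h hX s).1

theorem cF_pos (h : IsClamp χ M) {X : ℝ → ℝ × ℝ} (hX : Continuous X) (s : ℝ) :
    0 < cF k χ X s :=
  lt_of_lt_of_le (by positivity) (cF_mem h hX s).1

theorem gF_continuous (h : IsClamp χ M) {X : ℝ → ℝ × ℝ} (hX : Continuous X) :
    Continuous (gF k χ X) := by
  rw [continuous_iff_continuousAt]
  intro s
  have h1 : ContinuousAt (gOut k) (avg k (fOne k χ X) s, cF k χ X s, χ (X s).2) :=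
    (gOut_contDiffAt k _ (avg_fOne_pos h hX s) 0).continuousAt
  have hc : Continuous fun r => χ (X r).2 := by
    have := h.continuous
    fun_prop
  have h2 : Continuous fun s => (avg k (fOne k χ X) s, cF k χ X s, χ (X s).2) :=
    (avg_continuous k (fOne_continuous h hX)).prodMk ((avg_continuous k hc).prodMk hc)
  exact ContinuousAt.comp (f := fun s => (avg k (fOne k χ X) s, cF k χ X s, χ (X s).2))
    h1 h2.continuousAt

/-- The compact box. -/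
def box (k : ℕ) (M : ℝ) : Set (ℝ × ℝ × ℝ) :=
  Icc ((1 / 4 : ℝ) ^ (k + 5) / ((k : ℝ) + 1)) ((M + 1) ^ (k + 5) / ((k : ℝ) + 1)) ×ˢ
    (Icc ((1 / 4 : ℝ) / ((k : ℝ) + 1)) ((M + 1) / ((k : ℝ) + 1)) ×ˢ Icc (1 / 4) (M + 1))

theorem mem_box (h : IsClamp χ M) {X : ℝ → ℝ × ℝ} (hX : Continuous X) (s : ℝ) :
    (avg k (fOne k χ X) s, cF k χ X s, χ (X s).2) ∈ box k M :=
  ⟨avg_fOne_mem h hX s, cF_mem h hX s, h.low _, h.high _⟩

theorem box_compact (k : ℕ) (M : ℝ) : IsCompact (box k M) :=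
  isCompact_Icc.prod (isCompact_Icc.prod isCompact_Icc)

theorem gOut_lipschitz (k : ℕ) (M : ℝ) : ∃ K : NNReal, LipschitzOnWith K (gOut k) (box k M) := by
  apply LocallyLipschitzOn.exists_lipschitzOnWith_of_compact (box_compact k M)
  intro z hz
  have hz1 : 0 < z.1 := lt_of_lt_of_le (by positivity) hz.1.1
  obtain ⟨K, t, ht, hK⟩ := (gOut_contDiffAt k z hz1 1).exists_lipschitzOnWith
  exact ⟨K, t, mem_nhdsWithin_of_mem_nhds ht, hK⟩

theorem gF_bounded (k : ℕ) (M : ℝ) : ∃ B : ℝ, ∀ χ, IsClamp χ M → ∀ X : ℝ → ℝ × ℝ,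
    Continuous X → ∀ s, ‖gF k χ X s‖ ≤ B := by
  have hc : ContinuousOn (gOut k) (box k M) := fun z hz =>
    (gOut_contDiffAt k z (lt_of_lt_of_le (by positivity) hz.1.1) 0).continuousAt.continuousWithinAt
  obtain ⟨B, hB⟩ := (box_compact k M).exists_bound_of_continuousOn hc
  exact ⟨B, fun χ h X hX s => hB _ (mem_box h hX s)⟩

theorem fOne_lip (k : ℕ) (M : ℝ) : ∃ K : ℝ, 0 ≤ K ∧ ∀ χ, IsClamp χ M → ∀ X Y : ℝ → ℝ × ℝ,
    ∀ s, |fOne k χ X s - fOne k χ Y s| ≤ K * ‖X s - Y s‖ := by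
  have hf : ContDiff ℝ 1 (fun z : ℝ × ℝ => z.1 * z.2 ^ (k + 4)) := by fun_prop
  have hcp : IsCompact ((Icc (1 / 4) (M + 1) ×ˢ Icc (1 / 4) (M + 1) : Set (ℝ × ℝ))) :=
    isCompact_Icc.prod isCompact_Icc
  obtain ⟨K, hK⟩ := LocallyLipschitzOn.exists_lipschitzOnWith_of_compact hcp
    (f := fun z : ℝ × ℝ => z.1 * z.2 ^ (k + 4)) (by
      intro z hz
      obtain ⟨K, t, ht, hK⟩ := (hf.contDiffAt (x := z)).exists_lipschitzOnWith
      exact ⟨K, t, mem_nhdsWithin_of_mem_nhds ht, hK⟩)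
  refine ⟨K, K.2, fun χ h X Y s => ?_⟩
  have h1 := hK.dist_le_mul (χ (X s).1, χ (X s).2) ⟨⟨h.low _, h.high _⟩, ⟨h.low _, h.high _⟩⟩
    (χ (Y s).1, χ (Y s).2) ⟨⟨h.low _, h.high _⟩, ⟨h.low _, h.high _⟩⟩
  rw [Real.dist_eq] at h1
  refine h1.trans ?_
  apply mul_le_mul_of_nonneg_left _ K.2
  rw [Prod.dist_eq, Real.dist_eq, Real.dist_eq, Prod.norm_def]
  apply max_le_max
  · exact (h.lip _ _)
  · exact (h.lip _ _)

theorem gF_lip (k : ℕ) (M : ℝ) : ∃ L : ℝ, 0 ≤ L ∧ ∀ χ, IsClamp χ M → ∀ X Y : ℝ → ℝ × ℝ,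
    Continuous X → Continuous Y → ∀ s K,
    (∀ t ∈ Icc (0 : ℝ) 1, ‖X (t * s) - Y (t * s)‖ ≤ K) → ‖gF k χ X s - gF k χ Y s‖ ≤ L * K := by
  obtain ⟨K1, hK1⟩ := gOut_lipschitz k M
  obtain ⟨K2, hK20, hK2⟩ := fOne_lip k M
  refine ⟨K1 * (K2 + 1), by positivity, fun χ h X Y hX hY s K hK => ?_⟩
  have hK0 : 0 ≤ K := (norm_nonneg _).trans (hK 0 ⟨le_refl _, zero_le_one⟩)
  have h1 := hK1.dist_le_mul _ (mem_box h hX s) _ (mem_box h hY s)
  rw [dist_eq_norm] at h1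
  refine h1.trans ?_
  rw [mul_assoc]
  apply mul_le_mul_of_nonneg_left _ K1.2
  rw [Prod.dist_eq, Prod.dist_eq]
  have hc : ∀ Z : ℝ → ℝ × ℝ, Continuous Z → Continuous fun r => χ (Z r).2 := by
    intro Z hZ
    have := h.continuous
    fun_prop
  have hsnd : ∀ r, |χ (X r).2 - χ (Y r).2| ≤ ‖X r - Y r‖ := fun r =>
    (h.lip _ _).trans (le_max_right _ _)
  apply max_le
  · rw [Real.dist_eq]
    have : |avg k (fOne k χ X) s - avg k (fOne k χ Y) s| ≤ K2 * K := by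
      apply abs_avg_sub_le k (fOne_continuous h hX) (fOne_continuous h hY)
      intro t ht
      exact (hK2 χ h X Y _).trans (mul_le_mul_of_nonneg_left (hK t ht) hK20)
    nlinarith
  · apply max_le
    · rw [Real.dist_eq]
      have : |cF k χ X s - cF k χ Y s| ≤ K := by
        apply abs_avg_sub_le k (hc X hX) (hc Y hY)
        intro t ht
        exact (hsnd _).trans (hK t ht)
      nlinarith
    · rw [Real.dist_eq]
      have : |χ (X s).2 - χ (Y s).2| ≤ K := by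
        have h5 := hK 1 ⟨zero_le_one, le_refl _⟩
        rw [one_mul] at h5
        exact (hsnd s).trans h5
      nlinarith

/-- Global solution of the clamped equation. -/
theorem clamped_exists (k : ℕ) {χ : ℝ → ℝ} {M : ℝ} (h : IsClamp χ M) :
    ∃ X : ℝ → ℝ × ℝ, Continuous X ∧ ∀ s, X s = (1, 1) + ∫ t in (0 : ℝ)..s, gF k χ X t := by
  obtain ⟨B, hB⟩ := gF_bounded k M
  obtain ⟨L, hL0, hL⟩ := gF_lip k M
  exact volterra_exists (1, 1) (gF k χ) L B hL0 (fun X hX => gF_continuous h hX)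
    (fun X hX s => hB χ h X hX s) (fun X Y hX hY s K hK => hL χ h X Y hX hY s K hK)

end

end Vale.Agent.P252
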