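import Vale.Agent.P252.Defs
import Vale.Agent.P252.Block
import Vale.Agent.P252.Alg

/-!
Verification of the affine maximal equation for `u = √(x₀² + V(|x'|²)²)`.
-/

namespace Vale.Agent.P252

open scoped ContDiff Topology
open Filter

/-- `|x'|²`, where `x = (x₀, x')`. -/
noncomputable def sq {m : ℕ} (x : EuclideanSpace ℝ (Fin (m + 1))) : ℝ :=
  ∑ k : Fin m, x k.succ ^ 2

/-- `u = √(x₀² + V(|x'|²)²)`. -/
noncomputable def profU {m : ℕ} (V : ℝ → ℝ) (x : EuclideanSpace ℝ (Fin (m + 1))) : ℝ :=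
  Real.sqrt (x 0 ^ 2 + V (sq x) ^ 2)

section Calculus

variable {m : ℕ}

/-- The coordinate functionals. -/
noncomputable def pr (i : Fin (m + 1)) : EuclideanSpace ℝ (Fin (m + 1)) →L[ℝ] ℝ :=
  EuclideanSpace.proj i

@[simp] theorem pr_apply (i : Fin (m + 1)) (x : EuclideanSpace ℝ (Fin (m + 1))) :
    pr i x = x i := rfl

/-- The derivative of `sq`. -/
noncomputable def dsq (x : EuclideanSpace ℝ (Fin (m + 1))) :
    EuclideanSpace ℝ (Fin (m + 1)) →L[ℝ] ℝ :=
  ∑ k : Fin m, (2 * x k.succ) • pr k.succ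

theorem hasFDerivAt_coord (i : Fin (m + 1)) (x : EuclideanSpace ℝ (Fin (m + 1))) :
    HasFDerivAt (fun y : EuclideanSpace ℝ (Fin (m + 1)) => y i) (pr i) x :=
  (pr i : EuclideanSpace ℝ (Fin (m + 1)) →L[ℝ] ℝ).hasFDerivAt

theorem hasFDerivAt_sq (x : EuclideanSpace ℝ (Fin (m + 1))) : HasFDerivAt sq (dsq x) x := by
  unfold sq dsq
  apply HasFDerivAt.fun_sum
  intro k _
  have h := (hasFDerivAt_coord k.succ x).pow 2
  refine h.congr_fderiv ?_
  ext z
  simp

/-- `f` has derivative `a dx₀ + b d(sq)` at `x`. -/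
def HD (f : EuclideanSpace ℝ (Fin (m + 1)) → ℝ) (a b : ℝ)
    (x : EuclideanSpace ℝ (Fin (m + 1))) : Prop :=
  HasFDerivAt f (a • pr 0
    + b • dsq x) x

theorem HD.congr {f : EuclideanSpace ℝ (Fin (m + 1)) → ℝ} {a b a' b' : ℝ}
    {x : EuclideanSpace ℝ (Fin (m + 1))} (h : HD f a b x) (ha : a = a') (hb : b = b') :
    HD f a' b' x := by subst ha; subst hb; exact h

theorem HD.eventually {f g : EuclideanSpace ℝ (Fin (m + 1)) → ℝ} {a b : ℝ}
    {x : EuclideanSpace ℝ (Fin (m + 1))} (h : HD f a b x) (hfg : g =ᶠ[𝓝 x] f) :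
    HD g a b x := HasFDerivAt.congr_of_eventuallyEq h hfg

theorem HD_zero (x : EuclideanSpace ℝ (Fin (m + 1))) :
    HD (fun y : EuclideanSpace ℝ (Fin (m + 1)) => y 0) 1 0 x := by
  unfold HD
  simpa using hasFDerivAt_coord 0 x

theorem HD_sq (x : EuclideanSpace ℝ (Fin (m + 1))) : HD sq 0 1 x := by
  unfold HD
  simpa using hasFDerivAt_sq x

theorem HD.comp {f : EuclideanSpace ℝ (Fin (m + 1)) → ℝ} {a b : ℝ}
    {x : EuclideanSpace ℝ (Fin (m + 1))} (h : HD f a b x) {φ : ℝ → ℝ} {φ' : ℝ}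
    (hφ : HasDerivAt φ φ' (f x)) : HD (fun y => φ (f y)) (φ' * a) (φ' * b) x := by
  unfold HD at *
  refine (hφ.comp_hasFDerivAt x h).congr_fderiv ?_
  rw [smul_add, smul_smul, smul_smul]

theorem HD.comp_sq {x : EuclideanSpace ℝ (Fin (m + 1))} {φ : ℝ → ℝ} {φ' : ℝ}
    (hφ : HasDerivAt φ φ' (sq x)) :
    HD (fun y : EuclideanSpace ℝ (Fin (m + 1)) => φ (sq y)) 0 φ' x :=
  ((HD_sq x).comp hφ).congr (by ring) (by ring)

theorem HD.mul {f g : EuclideanSpace ℝ (Fin (m + 1)) → ℝ} {a b c d : ℝ}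
    {x : EuclideanSpace ℝ (Fin (m + 1))} (hf : HD f a b x) (hg : HD g c d x) :
    HD (fun y => f y * g y) (a * g x + f x * c) (b * g x + f x * d) x := by
  unfold HD at *
  refine (HasFDerivAt.fun_mul hf hg).congr_fderiv ?_
  ext z
  simp
  ring

theorem HD.add {f g : EuclideanSpace ℝ (Fin (m + 1)) → ℝ} {a b c d : ℝ}
    {x : EuclideanSpace ℝ (Fin (m + 1))} (hf : HD f a b x) (hg : HD g c d x) :
    HD (fun y => f y + g y) (a + c) (b + d) x := by
  unfold HD at *
  refine (HasFDerivAt.fun_add hf hg).congr_fderiv ?_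
  ext z
  simp
  ring

theorem HD.const_mul {f : EuclideanSpace ℝ (Fin (m + 1)) → ℝ} {a b : ℝ}
    {x : EuclideanSpace ℝ (Fin (m + 1))} (hf : HD f a b x) (c : ℝ) :
    HD (fun y => c * f y) (c * a) (c * b) x := by
  have h : HasDerivAt (fun t : ℝ => c * t) c (f x) := by
    simpa using (hasDerivAt_id (f x)).const_mul c
  exact hf.comp h

theorem HD.pow {f : EuclideanSpace ℝ (Fin (m + 1)) → ℝ} {a b : ℝ}
    {x : EuclideanSpace ℝ (Fin (m + 1))} (hf : HD f a b x) (n : ℕ) :
    HD (fun y => f y ^ n) (n * f x ^ (n - 1) * a) (n * f x ^ (n - 1) * b) x := by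
  have h : HasDerivAt (fun t : ℝ => t ^ n) (n * f x ^ (n - 1)) (f x) := hasDerivAt_pow n (f x)
  exact hf.comp h

theorem HD.inv {f : EuclideanSpace ℝ (Fin (m + 1)) → ℝ} {a b : ℝ}
    {x : EuclideanSpace ℝ (Fin (m + 1))} (hf : HD f a b x) (h0 : f x ≠ 0) :
    HD (fun y => (f y)⁻¹) (-a / f x ^ 2) (-b / f x ^ 2) x := by
  have h : HasDerivAt (fun t : ℝ => t⁻¹) (-(f x ^ 2)⁻¹) (f x) := hasDerivAt_inv h0
  exact (hf.comp h).congr (by ring) (by ring)

theorem HD.sqrt {f : EuclideanSpace ℝ (Fin (m + 1)) → ℝ} {a b : ℝ}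
    {x : EuclideanSpace ℝ (Fin (m + 1))} (hf : HD f a b x) (h0 : 0 < f x) :
    HD (fun y => Real.sqrt (f y)) (a / (2 * Real.sqrt (f x))) (b / (2 * Real.sqrt (f x))) x := by
  have h : HasDerivAt Real.sqrt (1 / (2 * Real.sqrt (f x))) (f x) := Real.hasDerivAt_sqrt h0.ne'
  exact (hf.comp h).congr (by ring) (by ring)

theorem dsq_single_zero (x : EuclideanSpace ℝ (Fin (m + 1))) :
    dsq x (EuclideanSpace.single 0 1) = 0 := by
  unfold dsq
  simp [Fin.succ_ne_zero]

theorem dsq_single_succ (x : EuclideanSpace ℝ (Fin (m + 1))) (l : Fin m) :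
    dsq x (EuclideanSpace.single l.succ 1) = 2 * x l.succ := by
  unfold dsq
  simp [Fin.succ_inj, PiLp.single_apply]

/-- The Hessian of a function of `(x₀, |x'|²)`. -/
theorem hess_of_HD {f A B : EuclideanSpace ℝ (Fin (m + 1)) → ℝ}
    {x : EuclideanSpace ℝ (Fin (m + 1))} {a0 a1 b1 : ℝ}
    (h1 : ∀ᶠ y in 𝓝 x, HD f (A y) (B y) y) (hA : HD A a0 a1 x) (hB : HD B a1 b1 x) :
    hess f x = bm a0 (2 * a1) (2 * B x) (4 * b1) (fun k => x k.succ) := by
  have hj0 : HasFDerivAt (fun y => fderiv ℝ f y (EuclideanSpace.single 0 1))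
      (a0 • pr 0
        + a1 • dsq x) x := by
    refine HasFDerivAt.congr_of_eventuallyEq hA ?_
    filter_upwards [h1] with y hy
    rw [HasFDerivAt.fderiv hy]
    simp [dsq_single_zero]
  have hjs : ∀ l : Fin m, HasFDerivAt (fun y => fderiv ℝ f y (EuclideanSpace.single l.succ 1))
      (B x • ((2 : ℝ) • pr l.succ)
        + (2 * x l.succ) • (a1 • pr 0 + b1 • dsq x)) x := by
    intro l
    have h2 : HasFDerivAt (fun y : EuclideanSpace ℝ (Fin (m + 1)) => 2 * y l.succ)
        ((2 : ℝ) • pr l.succ) x :=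
      (hasFDerivAt_coord l.succ x).const_mul 2
    have h3 := HasFDerivAt.fun_mul hB h2
    refine h3.congr_of_eventuallyEq ?_
    filter_upwards [h1] with y hy
    rw [HasFDerivAt.fderiv hy]
    simp [dsq_single_succ]
  ext i j
  refine Fin.cases ?_ (fun l => ?_) j
  · rw [hess, Matrix.of_apply, hj0.fderiv]
    refine Fin.cases ?_ (fun k => ?_) i
    · simp [dsq_single_zero]
    · simp [dsq_single_succ]
      ring
  · rw [hess, Matrix.of_apply, (hjs l).fderiv]
    refine Fin.cases ?_ (fun k => ?_) i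
    · simp [dsq_single_zero]
      ring
    · simp [dsq_single_succ, PiLp.single_apply, Fin.succ_inj]
      by_cases h : k = l
      · subst h
        simp
        ring
      · have h' : ¬ l = k := fun h'' => h h''.symm
        simp [h, h']
        ring

end Calculus

section Profile

variable {m : ℕ}

theorem sq_nonneg' (x : EuclideanSpace ℝ (Fin (m + 1))) : 0 ≤ sq x :=
  Finset.sum_nonneg fun _ _ => sq_nonneg _

theorem continuous_sq : Continuous (sq : EuclideanSpace ℝ (Fin (m + 1)) → ℝ) := by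
  unfold sq
  fun_prop

theorem hasDerivAt_of_smooth {V : ℝ → ℝ} (hV : ContDiff ℝ ∞ V) (s : ℝ) :
    HasDerivAt V (deriv V s) s :=
  ((hV.differentiable (by simp)) s).hasDerivAt

theorem smooth_deriv {V : ℝ → ℝ} (hV : ContDiff ℝ ∞ V) : ContDiff ℝ ∞ (deriv V) :=
  (contDiff_infty_iff_deriv.1 hV).2

theorem profU_pos {V : ℝ → ℝ} {x : EuclideanSpace ℝ (Fin (m + 1))} (h : 0 < V (sq x)) :
    0 < profU V x := by
  unfold profU
  positivity

theorem profU_sq {V : ℝ → ℝ} (x : EuclideanSpace ℝ (Fin (m + 1))) :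
    profU V x ^ 2 = x 0 ^ 2 + V (sq x) ^ 2 := by
  unfold profU
  exact Real.sq_sqrt (by positivity)

theorem HD_profU {V : ℝ → ℝ} (hV : ContDiff ℝ ∞ V) (y : EuclideanSpace ℝ (Fin (m + 1)))
    (hq : 0 < V (sq y)) :
    HD (profU V) (y 0 * (profU V y)⁻¹) (V (sq y) * deriv V (sq y) * (profU V y)⁻¹) y := by
  have h1 : HD (fun y : EuclideanSpace ℝ (Fin (m + 1)) => y 0 ^ 2 + V (sq y) ^ 2)
      (2 * y 0) (2 * V (sq y) * deriv V (sq y)) y := by
    refine (((HD_zero y).pow 2).add
      ((HD.comp_sq (hasDerivAt_of_smooth hV (sq y))).pow 2)).congr ?_ ?_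
    · simp
    · simp
  have h2 := h1.sqrt (by positivity)
  refine HD.congr (f := profU V) h2 ?_ ?_
  · unfold profU
    field_simp
  · unfold profU
    field_simp

theorem hess_profU {V : ℝ → ℝ} (hV : ContDiff ℝ ∞ V) (x : EuclideanSpace ℝ (Fin (m + 1)))
    (hpos : 0 < V (sq x)) :
    hess (profU V) x
      = bm (V (sq x) ^ 2 / profU V x ^ 3)
        (-2 * x 0 * (V (sq x) * deriv V (sq x)) / profU V x ^ 3)
        (2 * (V (sq x) * deriv V (sq x)) / profU V x)
        (4 * ((deriv V (sq x) ^ 2 + V (sq x) * deriv (deriv V) (sq x)) / profU V x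
          - (V (sq x) * deriv V (sq x)) ^ 2 / profU V x ^ 3))
        (fun k => x k.succ) := by
  have hev : ∀ᶠ y in 𝓝 x, HD (profU V) (y 0 * (profU V y)⁻¹)
      (V (sq y) * deriv V (sq y) * (profU V y)⁻¹) y := by
    have hc : Continuous fun y : EuclideanSpace ℝ (Fin (m + 1)) => V (sq y) :=
      hV.continuous.comp continuous_sq
    filter_upwards [hc.continuousAt.eventually (lt_mem_nhds hpos)] with y hy
    exact HD_profU hV y hy
  have hu := HD_profU hV x hpos
  have hupos := profU_pos hpos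
  have husq := profU_sq (V := V) x
  have hinv := hu.inv hupos.ne'
  have hA : HD (fun y : EuclideanSpace ℝ (Fin (m + 1)) => y 0 * (profU V y)⁻¹)
      (V (sq x) ^ 2 / profU V x ^ 3)
      (-x 0 * (V (sq x) * deriv V (sq x)) / profU V x ^ 3) x := by
    refine ((HD_zero x).mul hinv).congr ?_ ?_
    · have : V (sq x) ^ 2 = profU V x ^ 2 - x 0 ^ 2 := by linarith
      rw [this]
      field_simp
      ring
    · field_simp
      ring
  have hP : HasDerivAt (fun s => V s * deriv V s)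
      (deriv V (sq x) * deriv V (sq x) + V (sq x) * deriv (deriv V) (sq x)) (sq x) :=
    (hasDerivAt_of_smooth hV (sq x)).mul (hasDerivAt_of_smooth (smooth_deriv hV) (sq x))
  have hB : HD (fun y : EuclideanSpace ℝ (Fin (m + 1)) =>
        V (sq y) * deriv V (sq y) * (profU V y)⁻¹)
      (-x 0 * (V (sq x) * deriv V (sq x)) / profU V x ^ 3)
      ((deriv V (sq x) ^ 2 + V (sq x) * deriv (deriv V) (sq x)) / profU V x
          - (V (sq x) * deriv V (sq x)) ^ 2 / profU V x ^ 3) x := by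
    refine ((HD.comp_sq hP).mul hinv).congr ?_ ?_
    · field_simp
      ring
    · field_simp
      ring
  rw [hess_of_HD hev hA hB]
  congr 1
  · ring
  · ring

/-- Positive definiteness and determinant of the Hessian. -/
theorem hess_profU_det (hm : 1 ≤ m) {V J : ℝ → ℝ} (hV : ContDiff ℝ ∞ V)
    (x : EuclideanSpace ℝ (Fin (m + 1)))
    (hpos : 0 < V (sq x)) (hJpos : 0 < J (sq x)) (hV' : 0 < deriv V (sq x))
    (hE1 : (2 * deriv V (sq x)) ^ (m - 1) * (2 * deriv V (sq x)
      + 4 * sq x * deriv (deriv V) (sq x)) = V (sq x) * J (sq x) ^ (m + 3)) :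
    0 < 2 * deriv V (sq x) + 4 * sq x * deriv (deriv V) (sq x) ∧
    V (sq x) ^ 3 * (2 * deriv V (sq x) + 4 * sq x * deriv (deriv V) (sq x)) / profU V x ^ 4
      = (2 * (V (sq x) * deriv V (sq x)) / profU V x
          + 4 * ((deriv V (sq x) ^ 2 + V (sq x) * deriv (deriv V) (sq x)) / profU V x
          - (V (sq x) * deriv V (sq x)) ^ 2 / profU V x ^ 3) * sq x)
        * (V (sq x) ^ 2 / profU V x ^ 3)
        - (-2 * x 0 * (V (sq x) * deriv V (sq x)) / profU V x ^ 3) ^ 2 * sq x ∧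
    (hess (profU V) x).PosDef ∧
    (hess (profU V) x).det = (V (sq x) * J (sq x) / profU V x) ^ (m + 3) := by
  have hupos := profU_pos hpos
  have husq := profU_sq (V := V) x
  have hs0 := sq_nonneg' x
  have hA : 0 < 2 * deriv V (sq x) + 4 * sq x * deriv (deriv V) (sq x) := by
    have h1 : 0 < (2 * deriv V (sq x)) ^ (m - 1) := by positivity
    have h2 : 0 < V (sq x) * J (sq x) ^ (m + 3) := by positivity
    rw [← hE1] at h2
    exact (mul_pos_iff_of_pos_left h1).1 h2
  have hD : V (sq x) ^ 3 * (2 * deriv V (sq x) + 4 * sq x * deriv (deriv V) (sq x))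
        / profU V x ^ 4
      = (2 * (V (sq x) * deriv V (sq x)) / profU V x
          + 4 * ((deriv V (sq x) ^ 2 + V (sq x) * deriv (deriv V) (sq x)) / profU V x
          - (V (sq x) * deriv V (sq x)) ^ 2 / profU V x ^ 3) * sq x)
        * (V (sq x) ^ 2 / profU V x ^ 3)
        - (-2 * x 0 * (V (sq x) * deriv V (sq x)) / profU V x ^ 3) ^ 2 * sq x := by
    have e1 : (-2 * x 0 * (V (sq x) * deriv V (sq x)) / profU V x ^ 3) ^ 2 * sq x
        = (-2 * (V (sq x) * deriv V (sq x)) / profU V x ^ 3) ^ 2 * sq x * x 0 ^ 2 := by ring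
    have e2 : x 0 ^ 2 = profU V x ^ 2 - V (sq x) ^ 2 := by linarith
    rw [e1, e2]
    field_simp
    ring
  have hsum : sq x = ∑ k : Fin m, (fun k : Fin m => x k.succ) k ^ 2 := rfl
  have hDpos : 0 < V (sq x) ^ 3 * (2 * deriv V (sq x) + 4 * sq x * deriv (deriv V) (sq x))
        / profU V x ^ 4 := by positivity
  refine ⟨hA, hD, ?_, ?_⟩
  · rw [hess_profU hV x hpos]
    apply bm_posDef _ _ _ _ _ (sq x) hsum
    · positivity
    · positivity
    · rw [← hD]; exact hDpos
  · rw [hess_profU hV x hpos, bm_det _ _ _ _ _ hm (sq x) hsum (by positivity), ← hD]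
    obtain ⟨k, rfl⟩ : ∃ k, m = k + 1 := ⟨m - 1, by omega⟩
    simp only [Nat.add_sub_cancel] at hE1 ⊢
    have e3 : (2 * (V (sq x) * deriv V (sq x)) / profU V x) ^ k
        = V (sq x) ^ k * (2 * deriv V (sq x)) ^ k / profU V x ^ k := by
      rw [div_pow, ← mul_pow]
      congr 2
      ring
    rw [e3, div_mul_div_comm, div_pow]
    have e4 : V (sq x) ^ k * (2 * deriv V (sq x)) ^ k
        * (V (sq x) ^ 3 * (2 * deriv V (sq x) + 4 * sq x * deriv (deriv V) (sq x)))
        = V (sq x) ^ k * V (sq x) ^ 3 * ((2 * deriv V (sq x)) ^ k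
          * (2 * deriv V (sq x) + 4 * sq x * deriv (deriv V) (sq x))) := by ring
    rw [e4, hE1]
    congr 1 <;> ring

theorem wdens_profU (hm : 1 ≤ m) {V J : ℝ → ℝ} (hV : ContDiff ℝ ∞ V)
    (x : EuclideanSpace ℝ (Fin (m + 1)))
    (hpos : 0 < V (sq x)) (hJpos : 0 < J (sq x)) (hV' : 0 < deriv V (sq x))
    (hE1 : (2 * deriv V (sq x)) ^ (m - 1) * (2 * deriv V (sq x)
      + 4 * sq x * deriv (deriv V) (sq x)) = V (sq x) * J (sq x) ^ (m + 3)) :
    wdens (profU V) x = ((V (sq x) * J (sq x)) ^ (m + 2))⁻¹ * profU V x ^ (m + 2) := by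
  obtain ⟨-, -, -, hdet⟩ := hess_profU_det hm hV x hpos hJpos hV' hE1
  have hupos := profU_pos hpos
  unfold wdens
  rw [hdet]
  have ht : 0 < V (sq x) * J (sq x) / profU V x := by positivity
  rw [← Real.rpow_natCast _ (m + 3), ← Real.rpow_mul ht.le]
  have he : ((m + 3 : ℕ) : ℝ) * (-(((m + 1 : ℕ) : ℝ) + 1) / (((m + 1 : ℕ) : ℝ) + 2))
      = -((m + 2 : ℕ) : ℝ) := by
    push_cast
    have : (m : ℝ) + 1 + 2 ≠ 0 := by positivity
    field_simp
    ring
  rw [he, Real.rpow_neg ht.le, Real.rpow_natCast, div_pow, inv_div, div_eq_mul_inv, mul_comm]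

/-- `kap = (V J)^{-(m+2)}` and its derivative. -/
theorem hasDerivAt_kap {V J : ℝ → ℝ} (hV : ContDiff ℝ ∞ V) (hJ : ContDiff ℝ ∞ J) (s : ℝ)
    (h0 : V s * J s ≠ 0) :
    HasDerivAt (fun s => ((V s * J s) ^ (m + 2))⁻¹)
      (-((m : ℝ) + 2) * ((deriv V s * J s + V s * deriv J s) / (V s * J s))
        * ((V s * J s) ^ (m + 2))⁻¹) s := by
  have hK : HasDerivAt (fun s => V s * J s) (deriv V s * J s + V s * deriv J s) s :=
    (hasDerivAt_of_smooth hV s).mul (hasDerivAt_of_smooth hJ s)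
  have h1 := (hK.pow (m + 2)).inv (pow_ne_zero (m + 2) h0)
  refine h1.congr_deriv ?_
  have e : (m + 2 - 1) = m + 1 := by omega
  simp only [Pi.pow_apply, e]
  push_cast
  have h2 : (V s * J s) ^ (m + 2) = (V s * J s) ^ (m + 1) * (V s * J s) := pow_succ _ _
  rw [h2]
  have h3 : (V s * J s) ^ (m + 1) ≠ 0 := pow_ne_zero _ h0
  generalize (V s * J s) ^ (m + 1) = T at *
  generalize V s * J s = K at *
  field_simp

theorem hasDerivAt_kap' {V J : ℝ → ℝ} (hV : ContDiff ℝ ∞ V) (hJ : ContDiff ℝ ∞ J) (s : ℝ)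
    (h0 : V s * J s ≠ 0) :
    HasDerivAt (fun s => -((m : ℝ) + 2) * ((deriv V s * J s + V s * deriv J s) / (V s * J s))
        * ((V s * J s) ^ (m + 2))⁻¹)
      ((((m : ℝ) + 2) ^ 2 * ((deriv V s * J s + V s * deriv J s) / (V s * J s)) ^ 2
        - ((m : ℝ) + 2) * ((deriv (deriv V) s * J s + 2 * deriv V s * deriv J s
            + V s * deriv (deriv J) s) / (V s * J s)
            - ((deriv V s * J s + V s * deriv J s) / (V s * J s)) ^ 2))
        * ((V s * J s) ^ (m + 2))⁻¹) s := by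
  have hK : HasDerivAt (fun s => V s * J s) (deriv V s * J s + V s * deriv J s) s :=
    (hasDerivAt_of_smooth hV s).mul (hasDerivAt_of_smooth hJ s)
  have hK1 : HasDerivAt (fun s => deriv V s * J s + V s * deriv J s)
      ((deriv (deriv V) s * J s + deriv V s * deriv J s)
        + (deriv V s * deriv J s + V s * deriv (deriv J) s)) s :=
    ((hasDerivAt_of_smooth (smooth_deriv hV) s).mul (hasDerivAt_of_smooth hJ s)).add
      ((hasDerivAt_of_smooth hV s).mul (hasDerivAt_of_smooth (smooth_deriv hJ) s))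
  have h1 := (((hK1.div hK h0).const_mul (-((m : ℝ) + 2))).mul
    (hasDerivAt_kap (m := m) hV hJ s h0))
  refine h1.congr_deriv ?_
  simp only [Pi.div_apply]
  have h3 : (V s * J s) ^ (m + 2) ≠ 0 := pow_ne_zero _ h0
  generalize (V s * J s) ^ (m + 2) = T at *
  generalize deriv V s * J s + V s * deriv J s = K1 at *
  have e5 : deriv (deriv V) s * J s + 2 * deriv V s * deriv J s + V s * deriv (deriv J) s
      = deriv (deriv V) s * J s + deriv V s * deriv J s
        + (deriv V s * deriv J s + V s * deriv (deriv J) s) := by ring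
  rw [e5]
  generalize deriv (deriv V) s * J s + deriv V s * deriv J s
        + (deriv V s * deriv J s + V s * deriv (deriv J) s) = K2 at *
  generalize V s * J s = K at *
  field_simp
  ring

/-- The Hessian of the density. -/
theorem hess_w (hm : 1 ≤ m) {V J : ℝ → ℝ} (hV : ContDiff ℝ ∞ V) (hJ : ContDiff ℝ ∞ J)
    (x : EuclideanSpace ℝ (Fin (m + 1))) (hpos : 0 < V (sq x)) (hJpos : 0 < J (sq x))
    (κ U : ℝ) (hκ : κ = ((V (sq x) * J (sq x)) ^ (m + 2))⁻¹) (hU : U = profU V x ^ m) :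
    hess (fun y => ((V (sq y) * J (sq y)) ^ (m + 2))⁻¹ * profU V y ^ (m + 2)) x
      = bm (κ * U * (((m : ℝ) + 2) * (m * x 0 ^ 2 / profU V x ^ 2 + 1)))
        (κ * U * (2 * ((m : ℝ) + 2) * x 0 * (-((m : ℝ) + 2)
            * ((deriv V (sq x) * J (sq x) + V (sq x) * deriv J (sq x))
              / (V (sq x) * J (sq x)))
            + m * (V (sq x) * deriv V (sq x)) / profU V x ^ 2)))
        (κ * U * (2 * (-((m : ℝ) + 2)
            * ((deriv V (sq x) * J (sq x) + V (sq x) * deriv J (sq x))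
              / (V (sq x) * J (sq x))) * profU V x ^ 2
            + ((m : ℝ) + 2) * (V (sq x) * deriv V (sq x)))))
        (κ * U * (4 * ((((m : ℝ) + 2) ^ 2 * ((deriv V (sq x) * J (sq x)
                + V (sq x) * deriv J (sq x)) / (V (sq x) * J (sq x))) ^ 2
              - ((m : ℝ) + 2) * ((deriv (deriv V) (sq x) * J (sq x)
                  + 2 * deriv V (sq x) * deriv J (sq x)
                  + V (sq x) * deriv (deriv J) (sq x)) / (V (sq x) * J (sq x))
                - ((deriv V (sq x) * J (sq x) + V (sq x) * deriv J (sq x))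
                  / (V (sq x) * J (sq x))) ^ 2)) * profU V x ^ 2
              - 2 * ((m : ℝ) + 2) ^ 2 * ((deriv V (sq x) * J (sq x)
                + V (sq x) * deriv J (sq x)) / (V (sq x) * J (sq x)))
                * (V (sq x) * deriv V (sq x))
              + ((m : ℝ) + 2) * m * (V (sq x) * deriv V (sq x)) ^ 2 / profU V x ^ 2
              + ((m : ℝ) + 2) * (deriv V (sq x) ^ 2
                + V (sq x) * deriv (deriv V) (sq x)))))
        (fun k => x k.succ) := by
  have hcV : Continuous fun y : EuclideanSpace ℝ (Fin (m + 1)) => V (sq y) :=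
    hV.continuous.comp continuous_sq
  have hcJ : Continuous fun y : EuclideanSpace ℝ (Fin (m + 1)) => J (sq y) :=
    hJ.continuous.comp continuous_sq
  -- first derivatives near x
  have hev : ∀ᶠ y in 𝓝 x,
      HD (fun y : EuclideanSpace ℝ (Fin (m + 1)) =>
          ((V (sq y) * J (sq y)) ^ (m + 2))⁻¹ * profU V y ^ (m + 2))
        ((((m : ℝ) + 2) * ((V (sq y) * J (sq y)) ^ (m + 2))⁻¹) * (profU V y ^ m * y 0))
        ((-((m : ℝ) + 2) * ((deriv V (sq y) * J (sq y) + V (sq y) * deriv J (sq y))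
            / (V (sq y) * J (sq y))) * ((V (sq y) * J (sq y)) ^ (m + 2))⁻¹)
            * profU V y ^ (m + 2)
          + (((m : ℝ) + 2) * ((V (sq y) * J (sq y)) ^ (m + 2))⁻¹)
            * (profU V y ^ m * (V (sq y) * deriv V (sq y)))) y := by
    filter_upwards [hcV.continuousAt.eventually (lt_mem_nhds hpos),
      hcJ.continuousAt.eventually (lt_mem_nhds hJpos)] with y hy1 hy2
    have hk := HD.comp_sq (x := y) (hasDerivAt_kap (m := m) hV hJ (sq y) (by positivity))
    have hu := (HD_profU hV y hy1).pow (m + 2)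
    have hup := profU_pos hy1
    refine (hk.mul hu).congr ?_ ?_
    · have e : m + 2 - 1 = m + 1 := by omega
      rw [e, pow_succ (profU V y) m]
      push_cast
      field_simp
      ring
    · have e : m + 2 - 1 = m + 1 := by omega
      rw [e, pow_succ (profU V y) m]
      push_cast
      field_simp
  have hup := profU_pos hpos
  have hu := HD_profU hV x hpos
  have hk := HD.comp_sq (x := x) (hasDerivAt_kap (m := m) hV hJ (sq x) (by positivity))
  have hk' := HD.comp_sq (x := x) (hasDerivAt_kap' (m := m) hV hJ (sq x) (by positivity))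
  have hP : HasDerivAt (fun s => V s * deriv V s)
      (deriv V (sq x) * deriv V (sq x) + V (sq x) * deriv (deriv V) (sq x)) (sq x) :=
    (hasDerivAt_of_smooth hV (sq x)).mul (hasDerivAt_of_smooth (smooth_deriv hV) (sq x))
  have e6 : (profU V x) ^ (m - 1) * (profU V x)⁻¹ = profU V x ^ m / profU V x ^ 2 := by
    obtain ⟨k, rfl⟩ : ∃ k, m = k + 1 := ⟨m - 1, by omega⟩
    simp only [Nat.add_sub_cancel]
    rw [pow_succ]
    field_simp
  have hum : HD (fun y : EuclideanSpace ℝ (Fin (m + 1)) => profU V y ^ m)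
      (m * (profU V x ^ m / profU V x ^ 2) * x 0)
      (m * (profU V x ^ m / profU V x ^ 2) * (V (sq x) * deriv V (sq x))) x := by
    refine (hu.pow m).congr ?_ ?_
    · rw [← e6]; ring
    · rw [← e6]; ring
  have hum2 : HD (fun y : EuclideanSpace ℝ (Fin (m + 1)) => profU V y ^ (m + 2))
      (((m : ℝ) + 2) * profU V x ^ m * x 0)
      (((m : ℝ) + 2) * profU V x ^ m * (V (sq x) * deriv V (sq x))) x := by
    have e : m + 2 - 1 = m + 1 := by omega
    refine (hu.pow (m + 2)).congr ?_ ?_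
    · rw [e, pow_succ (profU V x) m]; push_cast; field_simp
    · rw [e, pow_succ (profU V x) m]; push_cast; field_simp
  have hA := (hk.const_mul ((m : ℝ) + 2)).mul (hum.mul (HD_zero x))
  have hB := (hk'.mul hum2).add ((hk.const_mul ((m : ℝ) + 2)).mul (hum.mul (HD.comp_sq hP)))
  have e7 : profU V x ^ (m + 2) = profU V x ^ m * profU V x ^ 2 := pow_add _ _ _
  have hA' := hA.congr
    (a' := κ * U * (((m : ℝ) + 2) * (m * x 0 ^ 2 / profU V x ^ 2 + 1)))
    (b' := κ * U * (((m : ℝ) + 2) * x 0 * (-((m : ℝ) + 2)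
            * ((deriv V (sq x) * J (sq x) + V (sq x) * deriv J (sq x))
              / (V (sq x) * J (sq x)))
            + m * (V (sq x) * deriv V (sq x)) / profU V x ^ 2)))
    (by rw [hκ, hU]; ring) (by rw [hκ, hU]; ring)
  have hB' := hB.congr
    (a' := κ * U * (((m : ℝ) + 2) * x 0 * (-((m : ℝ) + 2)
            * ((deriv V (sq x) * J (sq x) + V (sq x) * deriv J (sq x))
              / (V (sq x) * J (sq x)))
            + m * (V (sq x) * deriv V (sq x)) / profU V x ^ 2)))
    (b' := κ * U * ((((m : ℝ) + 2) ^ 2 * ((deriv V (sq x) * J (sq x)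
                + V (sq x) * deriv J (sq x)) / (V (sq x) * J (sq x))) ^ 2
              - ((m : ℝ) + 2) * ((deriv (deriv V) (sq x) * J (sq x)
                  + 2 * deriv V (sq x) * deriv J (sq x)
                  + V (sq x) * deriv (deriv J) (sq x)) / (V (sq x) * J (sq x))
                - ((deriv V (sq x) * J (sq x) + V (sq x) * deriv J (sq x))
                  / (V (sq x) * J (sq x))) ^ 2)) * profU V x ^ 2
              - 2 * ((m : ℝ) + 2) ^ 2 * ((deriv V (sq x) * J (sq x)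
                + V (sq x) * deriv J (sq x)) / (V (sq x) * J (sq x)))
                * (V (sq x) * deriv V (sq x))
              + ((m : ℝ) + 2) * m * (V (sq x) * deriv V (sq x)) ^ 2 / profU V x ^ 2
              + ((m : ℝ) + 2) * (deriv V (sq x) ^ 2
                + V (sq x) * deriv (deriv V) (sq x))))
    (by rw [hκ, hU]; ring) (by rw [hκ, hU, e7]; ring)
  rw [hess_of_HD hev hA' hB']
  congr 1
  · ring
  · rw [hκ, hU, e7]; ring
  · ring

end Profile

theorem pde_local (m : ℕ) (hm : 1 ≤ m) (V J : ℝ → ℝ) (S : ℝ)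
    (hV : ContDiff ℝ ∞ V) (hJ : ContDiff ℝ ∞ J)
    (hVpos : ∀ s, 0 ≤ s → s < S → 0 < V s)
    (hJpos : ∀ s, 0 ≤ s → s < S → 0 < J s)
    (hV' : ∀ s, 0 ≤ s → s < S → 0 < deriv V s)
    (hE1 : ∀ s, 0 ≤ s → s < S →
      (2 * deriv V s) ^ (m - 1) * (2 * deriv V s + 4 * s * deriv (deriv V) s)
        = V s * J s ^ (m + 3))
    (hE2 : ∀ s, 0 ≤ s → s < S →
      2 * V s * J s * (m * deriv J s + 2 * s * deriv (deriv J) s) * (2 * deriv V s)
        + 4 * (m - 1) * s * V s * J s * (2 * deriv (deriv V) s) * deriv J s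
        - 4 * (m + 3) * s * V s * deriv J s ^ 2 * (2 * deriv V s)
        = J s ^ 2 * (2 * deriv V s) * (2 * deriv V s + 4 * s * deriv (deriv V) s))
    (x : EuclideanSpace ℝ (Fin (m + 1))) (hx : sq x < S) :
    (hess (profU V) x).PosDef ∧
    (hess (profU V) x).det = (V (sq x) * J (sq x) / profU V x) ^ (m + 3) ∧
    amOp (profU V) x = 0 := by
  have hs0 := sq_nonneg' x
  have hpos := hVpos _ hs0 hx
  have hJp := hJpos _ hs0 hx
  have hV1 := hV' _ hs0 hx
  obtain ⟨hA, hD, hpd, hdet⟩ := hess_profU_det hm hV x hpos hJp hV1 (hE1 _ hs0 hx)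
  refine ⟨hpd, hdet, ?_⟩
  have hupos := profU_pos hpos
  have husq := profU_sq (V := V) x
  have hw : wdens (profU V) =ᶠ[𝓝 x]
      fun y => ((V (sq y) * J (sq y)) ^ (m + 2))⁻¹ * profU V y ^ (m + 2) := by
    filter_upwards [continuous_sq.continuousAt.eventually (gt_mem_nhds hx)] with y hy
    have hy0 := sq_nonneg' y
    exact wdens_profU hm hV y (hVpos _ hy0 hy) (hJpos _ hy0 hy) (hV' _ hy0 hy) (hE1 _ hy0 hy)
  have hhess : hess (wdens (profU V)) x
      = hess (fun y => ((V (sq y) * J (sq y)) ^ (m + 2))⁻¹ * profU V y ^ (m + 2)) x := by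
    ext i j
    simp only [hess, Matrix.of_apply]
    congr 1
    refine Filter.EventuallyEq.fderiv_eq ?_
    filter_upwards [hw.eventuallyEq_nhds] with y hy
    rw [hy.fderiv_eq]
  unfold amOp
  have hsum : sq x = ∑ k : Fin m, (fun k : Fin m => x k.succ) k ^ 2 := rfl
  have hDpos : 0 < V (sq x) ^ 3 * (2 * deriv V (sq x) + 4 * sq x * deriv (deriv V) (sq x))
        / profU V x ^ 4 := by positivity
  have hα : 2 * (V (sq x) * deriv V (sq x)) / profU V x ≠ 0 := by positivity
  rw [hhess, hess_w hm hV hJ x hpos hJp _ _ rfl rfl]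
  simp only [mul_assoc (hess (profU V) x).det]
  simp only [← Finset.mul_sum]
  rw [hess_profU hV x hpos, bm_inv _ _ _ _ _ (sq x) hsum _ hD hDpos.ne' hα,
    bm_trace _ _ _ _ _ _ _ _ _ (sq x) hsum]
  apply mul_eq_zero_of_right
  rw [trace_simp _ _ _ _ _ _ _ _ _ _ _ hD hDpos.ne' hα]
  have halg := alg_id m (x 0) (profU V x) (V (sq x)) (deriv V (sq x)) (deriv (deriv V) (sq x))
    (J (sq x)) (deriv J (sq x)) (deriv (deriv J) (sq x)) (sq x) (by linarith) hupos.ne'
    hpos.ne' hJp.ne' hV1.ne' hA.ne' (hE2 _ hs0 hx)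
  have hfin := congrArg (fun t => ((V (sq x) * J (sq x)) ^ (m + 2))⁻¹ * profU V x ^ m * t) halg
  simp only [mul_zero] at hfin
  rw [← hfin]
  ring

end Vale.Agent.P252
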