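import Vale.Agent.P252.Growth
import Vale.Agent.P252.PDE

/-!
Gluing the unclamped pieces to a global profile, and the resulting entire solution.
-/

namespace Vale.Agent.P252

open MeasureTheory intervalIntegral Set Filter Topology
open scoped ContDiff

variable {k : ℕ}

/-- On `[0,S]` the functional does not see the clamp. -/
theorem gF_congr {χ χ' : ℝ → ℝ} {M M' : ℝ} {X : ℝ → ℝ × ℝ} (h : IsClamp χ M)
    (h' : IsClamp χ' M') (hX : IsSol k χ X) {S : ℝ} (hF : Free M S X) (hF' : Free M' S X) {s : ℝ}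
    (hs : s ∈ Icc 0 S) : gF k χ X s = gF k χ' X s := by
  have e1 : ∀ r ∈ Icc 0 S, χ (X r).1 = χ' (X r).1 := by
    intro r hr
    rw [hX.chi_fst h hF hr]
    exact (h'.eq_self _ (by linarith [hX.one_le_fst h hr.1]) (hF' r hr).1.le).symm
  have e2 : ∀ r ∈ Icc 0 S, χ (X r).2 = χ' (X r).2 := by
    intro r hr
    rw [hX.chi_snd h hF hr]
    exact (h'.eq_self _ (by linarith [hX.one_le_snd h hr.1]) (hF' r hr).2.le).symm
  have hmem : ∀ t ∈ Icc (0 : ℝ) 1, t * s ∈ Icc 0 S := by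
    intro t ht
    have h0 := hs.1
    have h1 := ht.1
    exact ⟨by positivity, by nlinarith [hs.2, ht.2]⟩
  have a1 : avg k (fOne k χ X) s = avg k (fOne k χ' X) s := by
    apply avg_congr
    intro t ht
    unfold fOne
    rw [e1 _ (hmem t ht), e2 _ (hmem t ht)]
  have a2 : cF k χ X s = cF k χ' X s := by
    unfold cF
    apply avg_congr
    intro t ht
    exact e2 _ (hmem t ht)
  unfold gF
  rw [a1, a2, e2 s hs]

theorem sol_unique {χ χ' : ℝ → ℝ} {M M' : ℝ} {X Y : ℝ → ℝ × ℝ} (h : IsClamp χ M)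
    (h' : IsClamp χ' M') (hX : IsSol k χ X) (hY : IsSol k χ' Y) {S : ℝ} (hF : Free M S X)
    (hF' : Free M' S X) : ∀ s ∈ Icc 0 S, X s = Y s := by
  obtain ⟨L, hL, hlip⟩ := gF_lip k M'
  apply volterra_unique (1, 1) (gF k χ') L S hL (fun Z hZ => gF_continuous h' hZ)
    (fun Z W hZ hW s K hK => hlip χ' h' Z W hZ hW s K hK) X Y hX.cont hY.cont
  · intro s hs
    have e : ∫ t in (0 : ℝ)..s, gF k χ' X t = ∫ t in (0 : ℝ)..s, gF k χ X t := by
      apply intervalIntegral.integral_congr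
      intro t ht
      rw [uIcc_of_le hs.1] at ht
      exact (gF_congr h h' hX hF hF' ⟨ht.1, ht.2.trans hs.2⟩).symm
    rw [e]
    exact hX.eq s
  · intro s _
    exact hY.eq s

/-- The family of unclamped solutions. -/
theorem exists_family (hk : 8 ≤ k) : ∃ (χ : ℝ → ℝ → ℝ) (X : ℝ → ℝ → ℝ × ℝ),
    (∀ S, IsClamp (χ S) (Real.exp S + 1)) ∧ (∀ S, IsSol k (χ S) (X S)) ∧
    (∀ S, Free (Real.exp S + 1) S (X S)) ∧
    (∀ S S', ∀ s, 0 ≤ s → s ≤ S → s ≤ S' → X S s = X S' s) := by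
  have h1 : ∀ S : ℝ, ∃ χ, IsClamp χ (Real.exp S + 1) := fun S =>
    exists_isClamp _ (by linarith [Real.exp_pos S])
  choose χ hχ using h1
  have h2 : ∀ S : ℝ, ∃ X, IsSol k (χ S) X := fun S => by
    obtain ⟨X, hX1, hX2⟩ := clamped_exists k (hχ S)
    exact ⟨X, hX1, hX2⟩
  choose X hX using h2
  have h3 : ∀ S, Free (Real.exp S + 1) S (X S) := fun S =>
    (hX S).free (hχ S) hk (by linarith)
  refine ⟨χ, X, hχ, hX, h3, ?_⟩
  intro S S' s hs0 hs1 hs2
  have hb := (hX S).bound (hχ S) hk ((h3 S).mono hs1)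
  refine sol_unique (hχ S) (hχ S') (hX S) (hX S') ((h3 S).mono hs1) ?_ s ⟨hs0, le_refl s⟩
  intro r hr
  have hbr := hb r hr
  have : Real.exp r ≤ Real.exp S' := Real.exp_le_exp.mpr (hr.2.trans hs2)
  exact ⟨by linarith [hbr.1], by linarith [hbr.2]⟩

/-! ### Locality of the operators -/

section locality

variable {n : ℕ} {f g : EuclideanSpace ℝ (Fin n) → ℝ} {x : EuclideanSpace ℝ (Fin n)}

theorem hess_congr (h : f =ᶠ[𝓝 x] g) : hess f x = hess g x := by
  unfold hess
  ext i j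
  simp only [Matrix.of_apply]
  have h1 : (fun y => fderiv ℝ f y (EuclideanSpace.single j 1)) =ᶠ[𝓝 x]
      fun y => fderiv ℝ g y (EuclideanSpace.single j 1) := by
    filter_upwards [h.fderiv (𝕜 := ℝ)] with y hy
    rw [hy]
  rw [h1.fderiv_eq]

theorem hess_eventuallyEq (h : f =ᶠ[𝓝 x] g) : hess f =ᶠ[𝓝 x] hess g := by
  filter_upwards [h.eventuallyEq_nhds] with y hy
  exact hess_congr hy

theorem wdens_eventuallyEq (h : f =ᶠ[𝓝 x] g) : wdens f =ᶠ[𝓝 x] wdens g := by
  filter_upwards [hess_eventuallyEq h] with y hy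
  unfold wdens
  rw [hy]

theorem amOp_congr (h : f =ᶠ[𝓝 x] g) : amOp f x = amOp g x := by
  unfold amOp
  rw [hess_congr h, hess_congr (wdens_eventuallyEq h)]

end locality

theorem sqG_nonneg {m : ℕ} (x : EuclideanSpace ℝ (Fin (m + 1))) : 0 ≤ sq x := by
  unfold sq
  positivity

theorem sq_contDiff {m : ℕ} : ContDiff ℝ ∞ (sq : EuclideanSpace ℝ (Fin (m + 1)) → ℝ) := by
  unfold sq
  apply ContDiff.sum
  intro i _
  have : ContDiff ℝ ∞ fun x : EuclideanSpace ℝ (Fin (m + 1)) => x i.succ :=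
    (EuclideanSpace.proj (𝕜 := ℝ) i.succ).contDiff
  exact this.pow 2

theorem profU_contDiffAt {m : ℕ} {V : ℝ → ℝ} (hV : ContDiff ℝ ∞ V)
    (x : EuclideanSpace ℝ (Fin (m + 1))) (hx : 0 < V (sq x)) : ContDiffAt ℝ ∞ (profU V) x := by
  unfold profU
  have h0 : ContDiff ℝ ∞ fun x : EuclideanSpace ℝ (Fin (m + 1)) => x 0 :=
    (EuclideanSpace.proj (𝕜 := ℝ) (0 : Fin (m + 1))).contDiff
  have h1 : ContDiff ℝ ∞ fun x : EuclideanSpace ℝ (Fin (m + 1)) => V (sq x) :=
    hV.comp sq_contDiff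
  have h2 : ContDiff ℝ ∞ fun x : EuclideanSpace ℝ (Fin (m + 1)) => x 0 ^ 2 + V (sq x) ^ 2 :=
    (h0.pow 2).add (h1.pow 2)
  apply h2.contDiffAt.sqrt
  positivity

/-- The entire solution in dimension `k + 2`, `k ≥ 8`. -/
theorem entire_solution (hk : 8 ≤ k) : ∃ u : EuclideanSpace ℝ (Fin (k + 1 + 1)) → ℝ,
    ContDiff ℝ ∞ u ∧ (∀ x, (hess u x).PosDef) ∧ (∀ x, amOp u x = 0) ∧
    (∀ y : ℝ, u (EuclideanSpace.single 0 y) = Real.sqrt (y ^ 2 + 1)) := by
  obtain ⟨χ, X, hχ, hX, hF, hglue⟩ := exists_family (k := k) hk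
  set V : ℝ → ℝ := fun s => (X (s + 1) s).1 with hV
  -- local comparison
  have hloc : ∀ S : ℝ, ∀ s, 0 ≤ s → s < S → V s = (X S s).1 := by
    intro S s hs0 hs
    simp only [hV]
    rw [hglue (s + 1) S s hs0 (by linarith) hs.le]
  have hev : ∀ x : EuclideanSpace ℝ (Fin (k + 1 + 1)),
      profU V =ᶠ[𝓝 x] profU (fun s => (X (sq x + 1) s).1) := by
    intro x
    have hopen : ∀ᶠ z in 𝓝 x, sq z < sq x + 1 :=
      (sq_contDiff (m := k + 1)).continuous.continuousAt.eventually (gt_mem_nhds (by linarith))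
    filter_upwards [hopen] with z hz
    unfold profU
    rw [hloc (sq x + 1) (sq z) (sqG_nonneg z) hz]
  have hsmooth : ∀ S, ContDiff ℝ ∞ (fun s => (X S s).1) := fun S =>
    contDiff_fst.comp ((hX S).contDiff (hχ S))
  have hsmoothJ : ∀ S, ContDiff ℝ ∞ (fun s => (X S s).2) := fun S =>
    contDiff_snd.comp ((hX S).contDiff (hχ S))
  have hderivV : ∀ S, deriv (fun s => (X S s).1) = fun s => 1 / 2 * pF k (χ S) (X S) s :=
    fun S => funext fun s => ((hX S).hasDerivAt_fst (hχ S) s).deriv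
  have hderivV2 : ∀ S s, deriv (deriv (fun s => (X S s).1)) s
      = 1 / 2 * deriv (pF k (χ S) (X S)) s := by
    intro S s
    rw [hderivV S]
    exact (((((hX S).pF_contDiff (hχ S)).differentiable (by simp) s).hasDerivAt).const_mul
      (1 / 2)).deriv
  have hpde : ∀ x : EuclideanSpace ℝ (Fin (k + 1 + 1)),
      (hess (profU (fun s => (X (sq x + 1) s).1)) x).PosDef ∧
      amOp (profU (fun s => (X (sq x + 1) s).1)) x = 0 := by
    intro x
    set S := sq x + 1 with hS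
    have h1 : ∀ s, 0 ≤ s → s < S → s ∈ Icc 0 S := fun s h0 h1 => ⟨h0, h1.le⟩
    have hmain := pde_local (k + 1) (by omega) (fun s => (X S s).1) (fun s => (X S s).2) S
      (hsmooth S) (hsmoothJ S) ?_ ?_ ?_ ?_ ?_ x (by linarith)
    · exact ⟨hmain.1, hmain.2.2⟩
    · intro s hs0 _
      have := (hX S).one_le_fst (hχ S) hs0
      linarith
    · intro s hs0 _
      have := (hX S).one_le_snd (hχ S) hs0
      linarith
    · intro s _ _
      rw [hderivV S]
      have := pF_pos (k := k) (hχ S) (hX S).cont s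
      simp only
      positivity
    · intro s hs0 hs1
      rw [hderivV2 S s, hderivV S]
      have := (hX S).ident_one (hχ S) (hF S) (h1 s hs0 hs1)
      simp only [Nat.add_sub_cancel]
      have e : 2 * (1 / 2 * pF k (χ S) (X S) s) = pF k (χ S) (X S) s := by ring
      have e2 : k + 1 + 3 = k + 4 := by omega
      rw [e, e2, ← this]
      ring
    · intro s hs0 hs1
      rw [hderivV2 S s, hderivV S]
      have := (hX S).ident_two (hχ S) (hF S) (h1 s hs0 hs1)
      push_cast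
      linear_combination -this
  refine ⟨profU V, ?_, ?_, ?_, ?_⟩
  · rw [contDiff_iff_contDiffAt]
    intro x
    refine ContDiffAt.congr_of_eventuallyEq ?_ (hev x)
    apply profU_contDiffAt (hsmooth _)
    have := (hX (sq x + 1)).one_le_fst (hχ _) (sqG_nonneg x)
    linarith
  · intro x
    rw [hess_congr (hev x)]
    exact (hpde x).1
  · intro x
    rw [amOp_congr (hev x)]
    exact (hpde x).2
  · intro y
    have hs : sq (EuclideanSpace.single (0 : Fin (k + 1 + 1)) y) = 0 := by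
      unfold sq
      apply Finset.sum_eq_zero
      intro i _
      simp [Fin.succ_ne_zero]
    unfold profU
    rw [hs]
    have hV0 : V 0 = 1 := by
      simp only [hV]
      rw [(hX (0 + 1)).zero]
    rw [hV0]
    simp

end Vale.Agent.P252
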