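import Vale.Agent.P252.Trap

/-!
Growth bounds and removal of the clamp.
-/

namespace Vale.Agent.P252

open MeasureTheory intervalIntegral Set Filter Topology
open scoped ContDiff

namespace FlowData

variable {k : ℕ} {S : ℝ} {V J p j1 j2 p1 : ℝ → ℝ}

theorem growth (h : FlowData k S V J p j1 j2 p1) (hk : 8 ≤ k)
    (hj1 : ∀ s ∈ Icc 0 S, 2 * ((k : ℝ) + 1) * j1 s * p s ^ k ≤ J s ^ (k + 5)) :
    ∀ s ∈ Icc 0 S, V s ≤ Real.exp s ∧ J s ≤ Real.exp s := by
  have htrap := h.trap hk
  have hk' : (8 : ℝ) ≤ k := by exact_mod_cast hk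
  have hint : ∀ s ∈ interior (Icc (0 : ℝ) S), s ∈ Icc (0 : ℝ) S := fun s hs => interior_subset hs
  have hVc : ContinuousOn V (Icc 0 S) := fun s hs => (h.dV s hs).continuousAt.continuousWithinAt
  have hVmono : MonotoneOn V (Icc 0 S) := by
    apply monotoneOn_of_deriv_nonneg (convex_Icc _ _) hVc
    · intro s hs
      exact (h.dV s (hint s hs)).differentiableAt.differentiableWithinAt
    · intro s hs
      rw [(h.dV s (hint s hs)).deriv]
      have := h.ppos s (hint s hs)
      positivity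
  have hV1 : ∀ s ∈ Icc 0 S, 1 ≤ V s := by
    intro s hs
    have h1 := hVmono (left_mem_Icc.mpr (hs.1.trans hs.2)) hs hs.1
    rwa [h.V0] at h1
  -- `J² / V` is antitone
  have hdJV : ∀ s ∈ Icc 0 S, HasDerivAt (fun s => J s ^ 2 / V s)
      ((2 * J s * j1 s * V s - J s ^ 2 * (1 / 2 * p s)) / V s ^ 2) s := by
    intro s hs
    have h1 : HasDerivAt (fun s => J s ^ 2) (2 * J s * j1 s) s := by
      have h2 : HasDerivAt (fun s => J s ^ 2) _ s := (h.dJ s hs).pow 2
      refine h2.congr_deriv ?_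
      simp
    exact h1.div (h.dV s hs) (h.Vpos s hs).ne'
  have hJV : AntitoneOn (fun s => J s ^ 2 / V s) (Icc 0 S) := by
    apply antitoneOn_of_deriv_nonpos (convex_Icc _ _)
    · exact fun s hs => (hdJV s hs).continuousAt.continuousWithinAt
    · exact fun s hs => (hdJV s (hint s hs)).differentiableAt.differentiableWithinAt
    · intro s hs'
      have hs := hint s hs'
      rw [(hdJV s hs).deriv]
      have hV := h.Vpos s hs
      have hJ := h.Jpos s hs
      have hp := h.ppos s hs
      have hj := h.j1nn s hs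
      apply div_nonpos_of_nonpos_of_nonneg _ (by positivity)
      have hpk : 0 < p s ^ k := pow_pos hp k
      -- `2 (k+1) j1 V ≤ Q J p`
      have hQe : V s * J s ^ (k + 4) = fQ k V J p s * p s ^ (k + 1) := by
        unfold fQ; field_simp
      have h1 : 2 * ((k : ℝ) + 1) * j1 s * V s ≤ fQ k V J p s * J s * p s := by
        have h2 : (2 * ((k : ℝ) + 1) * j1 s * p s ^ k) * V s ≤ J s ^ (k + 5) * V s :=
          mul_le_mul_of_nonneg_right (hj1 s hs) hV.le
        have h3 : J s ^ (k + 5) * V s = J s * (fQ k V J p s * p s ^ (k + 1)) := by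
          rw [← hQe]; ring
        rw [h3] at h2
        have h4 : (2 * ((k : ℝ) + 1) * j1 s * V s) * p s ^ k
            ≤ (fQ k V J p s * J s * p s) * p s ^ k := by
          calc (2 * ((k : ℝ) + 1) * j1 s * V s) * p s ^ k
              = (2 * ((k : ℝ) + 1) * j1 s * p s ^ k) * V s := by ring
            _ ≤ _ := h2
            _ = _ := by ring
        exact le_of_mul_le_mul_right h4 hpk
      have h2 : fQ k V J p s * J s * p s ≤ 7 / 2 * J s * p s := by
        have := (htrap s hs).2.1.le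
        have h3 : 0 ≤ J s * p s := by positivity
        calc fQ k V J p s * J s * p s = fQ k V J p s * (J s * p s) := by ring
          _ ≤ 7 / 2 * (J s * p s) := mul_le_mul_of_nonneg_right this h3
          _ = _ := by ring
      have h3 : 18 * (j1 s * V s) ≤ 2 * ((k : ℝ) + 1) * (j1 s * V s) :=
        mul_le_mul_of_nonneg_right (by linarith) (by positivity)
      have h4 : 2 * j1 s * V s ≤ J s * (1 / 2 * p s) := by
        have h5 : 0 < J s * p s := by positivity
        linarith
      have h5 : J s * (2 * j1 s * V s) ≤ J s * (J s * (1 / 2 * p s)) :=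
        mul_le_mul_of_nonneg_left h4 hJ.le
      linarith
  have hJ2V : ∀ s ∈ Icc 0 S, J s ^ 2 ≤ V s := by
    intro s hs
    have h1 := hJV (left_mem_Icc.mpr (hs.1.trans hs.2)) hs hs.1
    simp only [h.J0, h.V0] at h1
    have hV := h.Vpos s hs
    rw [div_le_iff₀ hV] at h1
    linarith
  -- `p ≤ 2 V`
  have hp2V : ∀ s ∈ Icc 0 S, p s ≤ 2 * V s := by
    intro s hs
    have hV := h.Vpos s hs
    have hJ := h.Jpos s hs
    have hp := h.ppos s hs
    have hj := h.j1nn s hs
    have hQ : 1 / 2 < fQ k V J p s := by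
      have hE : 0 ≤ fE J j1 s := by
        unfold fE
        have := hs.1
        positivity
      linarith [(htrap s hs).2.2]
    have hQe : V s * J s ^ (k + 4) = fQ k V J p s * p s ^ (k + 1) := by
      unfold fQ; field_simp
    have h1 : J s ^ (k + 4) ≤ V s ^ k := by
      have h2 : (J s ^ (k + 4)) ^ 2 ≤ (V s ^ k) ^ 2 := by
        calc (J s ^ (k + 4)) ^ 2 = (J s ^ 2) ^ (k + 4) := by ring
          _ ≤ V s ^ (k + 4) := pow_le_pow_left₀ (by positivity) (hJ2V s hs) _
          _ ≤ V s ^ (2 * k) := pow_le_pow_right₀ (hV1 s hs) (by omega)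
          _ = (V s ^ k) ^ 2 := by ring
      exact (pow_le_pow_iff_left₀ (by positivity) (by positivity) (by norm_num)).mp h2
    have h2 : p s ^ (k + 1) ≤ (2 * V s) ^ (k + 1) := by
      have h3 : 1 / 2 * p s ^ (k + 1) ≤ V s ^ (k + 1) := by
        calc 1 / 2 * p s ^ (k + 1) ≤ fQ k V J p s * p s ^ (k + 1) :=
              mul_le_mul_of_nonneg_right hQ.le (by positivity)
          _ = V s * J s ^ (k + 4) := hQe.symm
          _ ≤ V s * V s ^ k := mul_le_mul_of_nonneg_left h1 hV.le
          _ = V s ^ (k + 1) := by ring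
      have h4 : (2 : ℝ) ≤ 2 ^ (k + 1) := by
        calc (2 : ℝ) = 2 ^ 1 := by norm_num
          _ ≤ 2 ^ (k + 1) := pow_le_pow_right₀ (by norm_num) (by omega)
      calc p s ^ (k + 1) ≤ 2 * V s ^ (k + 1) := by linarith
        _ ≤ 2 ^ (k + 1) * V s ^ (k + 1) := mul_le_mul_of_nonneg_right h4 (by positivity)
        _ = (2 * V s) ^ (k + 1) := by rw [mul_pow]
    exact (pow_le_pow_iff_left₀ (by positivity) (by positivity) (by omega)).mp h2
  -- `V e^{-s}` antitone
  have hdVe : ∀ s ∈ Icc 0 S, HasDerivAt (fun s => V s * Real.exp (-s))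
      (1 / 2 * p s * Real.exp (-s) + V s * (Real.exp (-s) * (-1))) s := by
    intro s hs
    exact (h.dV s hs).mul ((hasDerivAt_neg s).exp)
  have hVe : AntitoneOn (fun s => V s * Real.exp (-s)) (Icc 0 S) := by
    apply antitoneOn_of_deriv_nonpos (convex_Icc _ _)
    · exact fun s hs => (hdVe s hs).continuousAt.continuousWithinAt
    · exact fun s hs => (hdVe s (hint s hs)).differentiableAt.differentiableWithinAt
    · intro s hs'
      have hs := hint s hs'
      rw [(hdVe s hs).deriv]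
      have e : 1 / 2 * p s * Real.exp (-s) + V s * (Real.exp (-s) * (-1))
          = (1 / 2 * p s - V s) * Real.exp (-s) := by ring
      rw [e]
      apply mul_nonpos_of_nonpos_of_nonneg _ (Real.exp_pos _).le
      linarith [hp2V s hs]
  intro s hs
  have hVs : V s ≤ Real.exp s := by
    have h1 := hVe (left_mem_Icc.mpr (hs.1.trans hs.2)) hs hs.1
    simp only [h.V0, neg_zero, Real.exp_zero, mul_one] at h1
    rw [Real.exp_neg, ← div_eq_mul_inv, div_le_iff₀ (Real.exp_pos s)] at h1
    linarith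
  refine ⟨hVs, ?_⟩
  have h1 := hJ2V s hs
  have h2 := hV1 s hs
  have hJ := h.Jpos s hs
  have h3 : J s ^ 2 ≤ V s ^ 2 := by nlinarith
  have h4 : J s ≤ V s := by
    exact (pow_le_pow_iff_left₀ hJ.le (by linarith) (by norm_num)).mp h3
  linarith

end FlowData

variable {k : ℕ} {χ : ℝ → ℝ} {M : ℝ} {X : ℝ → ℝ × ℝ}

theorem IsClamp.apply_one (h : IsClamp χ M) : χ 1 = 1 :=
  h.eq_self 1 (by norm_num) h.one_le

theorem IsSol.pF_zero (h : IsClamp χ M) (hX : IsSol k χ X) : pF k χ X 0 = 1 := by
  have h1 : avg k (fOne k χ X) 0 = 1 / ((k : ℝ) + 1) := by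
    unfold avg
    have : ∀ t : ℝ, t ^ k * fOne k χ X (t ^ 2 * 0) = t ^ k := by
      intro t
      simp [fOne, hX.zero, h.apply_one]
    simp_rw [this]
    exact integral_pow_unit k
  have hk : (0 : ℝ) < (k : ℝ) + 1 := by positivity
  have h2 : piF k χ X 0 = 1 := by
    unfold piF
    rw [h1]
    field_simp
  unfold pF
  rw [h2, Real.one_rpow]

theorem IsSol.flowData (h : IsClamp χ M) (hX : IsSol k χ X) {S : ℝ} (hF : Free M S X) :
    FlowData k S (fun s => (X s).1) (fun s => (X s).2) (pF k χ X)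
      (deriv fun s => (X s).2) (deriv (deriv fun s => (X s).2)) (deriv (pF k χ X)) := by
  have hJs : ContDiff ℝ ∞ (fun s => (X s).2) := contDiff_snd.comp (hX.contDiff h)
  refine ⟨by simp [hX.zero], by simp [hX.zero], hX.pF_zero h, ?_, ?_, ?_, ?_, ?_, ?_, ?_, ?_,
    ?_, ?_⟩
  · intro s hs
    have := hX.one_le_fst h hs.1
    linarith
  · intro s hs
    have := hX.one_le_snd h hs.1
    linarith
  · intro s hs
    exact pF_pos h hX.cont s
  · intro s hs
    rw [(hX.hasDerivAt_snd h s).deriv]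
    have h1 := pF_pos (k := k) h hX.cont s
    have h2 := cF_pos (k := k) h hX.cont s
    have h3 := h.pos (X s).2
    positivity
  · exact fun s _ => hX.hasDerivAt_fst h s
  · exact fun s _ => (hJs.differentiable (by simp) s).hasDerivAt
  · exact fun s _ =>
      (((contDiff_infty_iff_deriv.mp hJs).2).differentiable (by simp) s).hasDerivAt
  · exact fun s _ => ((hX.pF_contDiff h).differentiable (by simp) s).hasDerivAt
  · exact fun s hs => hX.ident_one h hF hs
  · exact fun s hs => hX.ident_two h hF hs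

theorem IsSol.j1_le (h : IsClamp χ M) (hX : IsSol k χ X) {S : ℝ} (hF : Free M S X) {s : ℝ}
    (hs : s ∈ Icc 0 S) :
    2 * ((k : ℝ) + 1) * deriv (fun s => (X s).2) s * pF k χ X s ^ k ≤ (X s).2 ^ (k + 5) := by
  rw [(hX.hasDerivAt_snd h s).deriv, hX.chi_snd h hF hs]
  have hp := pF_pos (k := k) h hX.cont s
  have hc := cF_pos (k := k) h hX.cont s
  have hJ : 0 < (X s).2 := by linarith [hX.one_le_snd h hs.1]
  have hpk : 0 < pF k χ X s ^ k := pow_pos hp k
  have hk : (0 : ℝ) < (k : ℝ) + 1 := by positivity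
  have hcle : cF k χ X s ≤ (X s).2 / ((k : ℝ) + 1) := by
    have hcont : Continuous fun r => χ (X r).2 := by
      have := h.continuous
      have := hX.cont
      fun_prop
    apply avg_le k hcont s
    intro t ht
    have ht2 : t ^ 2 * s ∈ Icc 0 S := by
      have h0 := hs.1
      have h1 : t ^ 2 ≤ 1 := pow_le_one₀ ht.1 ht.2
      exact ⟨by positivity, by nlinarith [hs.2]⟩
    show χ (X (t ^ 2 * s)).2 ≤ _
    rw [hX.chi_snd h hF ht2]
    apply hX.snd_mono h
    have h0 := hs.1
    have h1 : t ^ 2 ≤ 1 := pow_le_one₀ ht.1 ht.2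
    nlinarith
  have e : 2 * ((k : ℝ) + 1) * (1 / 2 * cF k χ X s * (pF k χ X s ^ k)⁻¹ * (X s).2 ^ (k + 4))
      * pF k χ X s ^ k = ((k : ℝ) + 1) * cF k χ X s * (X s).2 ^ (k + 4) := by
    field_simp
  rw [e]
  have h1 : ((k : ℝ) + 1) * cF k χ X s ≤ (X s).2 := by
    rw [le_div_iff₀ hk] at hcle
    linarith
  calc ((k : ℝ) + 1) * cF k χ X s * (X s).2 ^ (k + 4) ≤ (X s).2 * (X s).2 ^ (k + 4) :=
        mul_le_mul_of_nonneg_right h1 (by positivity)
    _ = (X s).2 ^ (k + 5) := by ring

theorem IsSol.bound (h : IsClamp χ M) (hX : IsSol k χ X) (hk : 8 ≤ k) {S : ℝ}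
    (hF : Free M S X) : ∀ s ∈ Icc 0 S, (X s).1 ≤ Real.exp s ∧ (X s).2 ≤ Real.exp s :=
  (hX.flowData h hF).growth hk fun _ hs => hX.j1_le h hF hs

/-- If the clamp level exceeds `e^S` then the solution is unclamped on `[0,S]`. -/
theorem IsSol.free (h : IsClamp χ M) (hX : IsSol k χ X) (hk : 8 ≤ k) {S : ℝ}
    (hM : Real.exp S < M) : Free M S X := by
  by_contra hcon
  unfold Free at hcon
  push Not at hcon
  obtain ⟨s2, hs2, hb2⟩ := hcon
  have hc1 : Continuous fun s => (X s).1 := by have := hX.cont; fun_prop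
  have hc2 : Continuous fun s => (X s).2 := by have := hX.cont; fun_prop
  have hcm : Continuous fun s => max (X s).1 (X s).2 := hc1.max hc2
  set B : Set ℝ := {s | s ∈ Icc 0 S ∧ M ≤ max (X s).1 (X s).2} with hB
  have hBne : B.Nonempty := by
    refine ⟨s2, hs2, ?_⟩
    rcases lt_or_ge (X s2).1 M with h1 | h1
    · exact le_max_of_le_right (hb2 h1)
    · exact le_max_of_le_left h1
  have hBb : BddBelow B := ⟨0, fun s hs => hs.1.1⟩
  have hBc : IsClosed B :=
    isClosed_Icc.inter (isClosed_le continuous_const hcm)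
  obtain ⟨hsI, hsM⟩ := hBc.csInf_mem hBne hBb
  set s1 := sInf B with hs1
  have hlt : ∀ s, 0 ≤ s → s < s1 → Free M s X := by
    intro s hs0 hss r hr
    by_contra hn
    have hrB : r ∈ B := by
      refine ⟨⟨hr.1, hr.2.trans (hss.le.trans hsI.2)⟩, ?_⟩
      by_contra h2
      push Not at h2
      exact hn ⟨(max_lt_iff.mp h2).1, (max_lt_iff.mp h2).2⟩
    have : s1 ≤ r := csInf_le hBb hrB
    linarith [hr.2]
  have hs1pos : 0 < s1 := by
    rcases hsI.1.lt_or_eq with h1 | h1
    · exact h1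
    · exfalso
      rw [← h1, hX.zero] at hsM
      simp only [max_self] at hsM
      have : (1 : ℝ) ≤ Real.exp S := by
        rw [Real.one_le_exp_iff]
        exact hs2.1.trans hs2.2
      linarith
  -- closure: max ≤ exp s1 at s1
  have hle : max (X s1).1 (X s1).2 ≤ Real.exp s1 := by
    have ht1 : Tendsto (fun s => max (X s).1 (X s).2) (𝓝[<] s1)
        (𝓝 (max (X s1).1 (X s1).2)) :=
      hcm.continuousAt.tendsto.mono_left nhdsWithin_le_nhds
    have ht2 : Tendsto (fun s => Real.exp s) (𝓝[<] s1) (𝓝 (Real.exp s1)) :=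
      Real.continuous_exp.continuousAt.tendsto.mono_left nhdsWithin_le_nhds
    apply le_of_tendsto_of_tendsto ht1 ht2
    have : ∀ᶠ r in 𝓝[<] s1, 0 < r := by
      apply eventually_nhdsWithin_of_eventually_nhds
      exact lt_mem_nhds hs1pos
    filter_upwards [this, self_mem_nhdsWithin] with r hr hr2
    have hb := hX.bound h hk (hlt r hr.le hr2) r ⟨hr.le, le_refl r⟩
    exact max_le hb.1 hb.2
  have h5 : Real.exp s1 ≤ Real.exp S := Real.exp_le_exp.mpr hsI.2
  linarith

end Vale.Agent.P252
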