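import Vale.Agent.P252.Functional

/-!
Basic properties of the solution of the clamped equation: smoothness, derivatives, monotonicity.
-/

namespace Vale.Agent.P252

open MeasureTheory intervalIntegral Set Filter Topology
open scoped ContDiff

/-- A solution of the clamped equation. -/
structure IsSol (k : ℕ) (χ : ℝ → ℝ) (X : ℝ → ℝ × ℝ) : Prop where
  cont : Continuous X
  eq : ∀ s, X s = (1, 1) + ∫ t in (0 : ℝ)..s, gF k χ X t

variable {k : ℕ} {χ : ℝ → ℝ} {M : ℝ} {X : ℝ → ℝ × ℝ}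

theorem IsSol.zero (hX : IsSol k χ X) : X 0 = (1, 1) := by
  rw [hX.eq 0]; simp

theorem IsSol.hasDerivAt (h : IsClamp χ M) (hX : IsSol k χ X) (s : ℝ) :
    HasDerivAt X (gF k χ X s) s := by
  have hc := gF_continuous (k := k) h hX.cont
  have h1 : HasDerivAt (fun s => ((1, 1) : ℝ × ℝ) + ∫ t in (0 : ℝ)..s, gF k χ X t)
      (gF k χ X s) s :=
    (intervalIntegral.integral_hasDerivAt_right (hc.intervalIntegrable _ _)
      (hc.stronglyMeasurableAtFilter _ _) hc.continuousAt).const_add _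
  have e : X = fun s => ((1, 1) : ℝ × ℝ) + ∫ t in (0 : ℝ)..s, gF k χ X t := funext hX.eq
  rw [← e] at h1
  exact h1

theorem gF_contDiff_nat (h : IsClamp χ M) (n : ℕ) (hX : ContDiff ℝ n X) :
    ContDiff ℝ n (gF k χ X) := by
  have hχ : ContDiff ℝ n χ := h.smooth.of_le (by exact_mod_cast le_top)
  have hcont := hX.continuous
  have h1 : ContDiff ℝ n fun s => χ (X s).1 := hχ.comp (contDiff_fst.comp hX)
  have h2 : ContDiff ℝ n fun s => χ (X s).2 := hχ.comp (contDiff_snd.comp hX)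
  have h3 : ContDiff ℝ n (fOne k χ X) := h1.mul (h2.pow _)
  have h4 : ContDiff ℝ n (avg k (fOne k χ X)) := avg_contDiff_nat n k h3
  have h5 : ContDiff ℝ n (cF k χ X) := avg_contDiff_nat n k h2
  have h6 : ContDiff ℝ n fun s => (avg k (fOne k χ X) s, cF k χ X s, χ (X s).2) :=
    h4.prodMk (h5.prodMk h2)
  rw [contDiff_iff_contDiffAt]
  intro s
  exact ContDiffAt.comp (f := fun s => (avg k (fOne k χ X) s, cF k χ X s, χ (X s).2)) s
    (gOut_contDiffAt k _ (avg_fOne_pos h hcont s) n) h6.contDiffAt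

theorem IsSol.contDiff_nat (h : IsClamp χ M) (hX : IsSol k χ X) (n : ℕ) : ContDiff ℝ n X := by
  induction n with
  | zero =>
    simp only [Nat.cast_zero]
    exact contDiff_zero.mpr hX.cont
  | succ n ih =>
    have e : ((n + 1 : ℕ) : WithTop ℕ∞) = (n : WithTop ℕ∞) + 1 := by norm_cast
    rw [e, contDiff_succ_iff_deriv]
    refine ⟨fun s => (hX.hasDerivAt h s).differentiableAt, by simp, ?_⟩
    have : deriv X = gF k χ X := funext fun s => (hX.hasDerivAt h s).deriv
    rw [this]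
    exact gF_contDiff_nat h n ih

theorem IsSol.contDiff (h : IsClamp χ M) (hX : IsSol k χ X) : ContDiff ℝ ∞ X :=
  contDiff_infty.mpr (hX.contDiff_nat h)

/-- `p = 2 V' = π^{1/m}`. -/
noncomputable def pF (k : ℕ) (χ : ℝ → ℝ) (X : ℝ → ℝ × ℝ) (s : ℝ) : ℝ :=
  (piF k χ X s) ^ (1 / ((k : ℝ) + 1))

theorem piF_pos (h : IsClamp χ M) (hX : Continuous X) (s : ℝ) : 0 < piF k χ X s := by
  unfold piF
  have := avg_fOne_pos (k := k) h hX s
  positivity

theorem pF_pos (h : IsClamp χ M) (hX : Continuous X) (s : ℝ) : 0 < pF k χ X s :=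
  Real.rpow_pos_of_pos (piF_pos h hX s) _

theorem pF_pow (h : IsClamp χ M) (hX : Continuous X) (s : ℝ) :
    pF k χ X s ^ (k + 1) = piF k χ X s := by
  unfold pF
  have h1 := (piF_pos (k := k) h hX s).le
  have : (1 / ((k : ℝ) + 1)) = (((k + 1 : ℕ) : ℝ))⁻¹ := by push_cast; ring
  rw [this, Real.rpow_inv_natCast_pow h1 (by omega)]

theorem rpow_neg_eq (h : IsClamp χ M) (hX : Continuous X) (s : ℝ) :
    (piF k χ X s) ^ (-((k : ℝ) / ((k : ℝ) + 1))) = (pF k χ X s ^ k)⁻¹ := by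
  have h1 := (piF_pos (k := k) h hX s)
  rw [Real.rpow_neg h1.le]
  congr 1
  unfold pF
  rw [← Real.rpow_natCast, ← Real.rpow_mul h1.le]
  congr 1
  ring

theorem IsSol.hasDerivAt_fst (h : IsClamp χ M) (hX : IsSol k χ X) (s : ℝ) :
    HasDerivAt (fun s => (X s).1) (1 / 2 * pF k χ X s) s := by
  have h1 := (ContinuousLinearMap.fst ℝ ℝ ℝ).hasFDerivAt.comp_hasDerivAt s (hX.hasDerivAt h s)
  exact h1

theorem IsSol.hasDerivAt_snd (h : IsClamp χ M) (hX : IsSol k χ X) (s : ℝ) :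
    HasDerivAt (fun s => (X s).2)
      (1 / 2 * cF k χ X s * (pF k χ X s ^ k)⁻¹ * χ (X s).2 ^ (k + 4)) s := by
  have h1 := (ContinuousLinearMap.snd ℝ ℝ ℝ).hasFDerivAt.comp_hasDerivAt s (hX.hasDerivAt h s)
  rw [← rpow_neg_eq h hX.cont s]
  exact h1

theorem IsSol.fst_mono (h : IsClamp χ M) (hX : IsSol k χ X) : Monotone fun s => (X s).1 := by
  apply monotone_of_deriv_nonneg (fun s => (hX.hasDerivAt_fst h s).differentiableAt)
  intro s
  rw [(hX.hasDerivAt_fst h s).deriv]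
  have := pF_pos (k := k) h hX.cont s
  positivity

theorem IsSol.snd_mono (h : IsClamp χ M) (hX : IsSol k χ X) : Monotone fun s => (X s).2 := by
  apply monotone_of_deriv_nonneg (fun s => (hX.hasDerivAt_snd h s).differentiableAt)
  intro s
  rw [(hX.hasDerivAt_snd h s).deriv]
  have h1 := pF_pos (k := k) h hX.cont s
  have h2 := cF_pos (k := k) h hX.cont s
  have h3 := h.pos (X s).2
  positivity

theorem IsSol.one_le_fst (h : IsClamp χ M) (hX : IsSol k χ X) {s : ℝ} (hs : 0 ≤ s) :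
    1 ≤ (X s).1 := by
  have := hX.fst_mono h hs
  simp only [hX.zero] at this
  exact this

theorem IsSol.one_le_snd (h : IsClamp χ M) (hX : IsSol k χ X) {s : ℝ} (hs : 0 ≤ s) :
    1 ≤ (X s).2 := by
  have := hX.snd_mono h hs
  simp only [hX.zero] at this
  exact this

/-- The solution is unclamped on `[0,S]`. -/
def Free (M S : ℝ) (X : ℝ → ℝ × ℝ) : Prop := ∀ s ∈ Icc 0 S, (X s).1 < M ∧ (X s).2 < M

theorem Free.mono {S S' : ℝ} (hF : Free M S X) (h : S' ≤ S) : Free M S' X :=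
  fun s hs => hF s ⟨hs.1, hs.2.trans h⟩

theorem IsSol.chi_fst (h : IsClamp χ M) (hX : IsSol k χ X) {S : ℝ} (hF : Free M S X) {s : ℝ}
    (hs : s ∈ Icc 0 S) : χ (X s).1 = (X s).1 :=
  h.eq_self _ (by linarith [hX.one_le_fst h hs.1]) (hF s hs).1.le

theorem IsSol.chi_snd (h : IsClamp χ M) (hX : IsSol k χ X) {S : ℝ} (hF : Free M S X) {s : ℝ}
    (hs : s ∈ Icc 0 S) : χ (X s).2 = (X s).2 :=
  h.eq_self _ (by linarith [hX.one_le_snd h hs.1]) (hF s hs).2.le

theorem IsSol.chi_snd_eventually (h : IsClamp χ M) (hX : IsSol k χ X) {S : ℝ} (hF : Free M S X)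
    {s : ℝ} (hs : s ∈ Icc 0 S) : ∀ᶠ r in 𝓝 s, χ (X r).2 = (X r).2 := by
  have hc : Continuous fun r => (X r).2 := by
    have := hX.cont
    fun_prop
  have h1 : ∀ᶠ r in 𝓝 s, 1 / 2 < (X r).2 :=
    hc.continuousAt.eventually (lt_mem_nhds (by linarith [hX.one_le_snd h hs.1]))
  have h2 : ∀ᶠ r in 𝓝 s, (X r).2 < M :=
    hc.continuousAt.eventually (gt_mem_nhds (hF s hs).2)
  filter_upwards [h1, h2] with r hr1 hr2
  exact h.eq_self _ hr1.le hr2.le

/-- `V`, `J`, `p` as smooth functions with derivatives. -/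
theorem IsSol.pF_contDiff (h : IsClamp χ M) (hX : IsSol k χ X) : ContDiff ℝ ∞ (pF k χ X) := by
  rw [contDiff_infty]
  intro n
  have h1 : ContDiff ℝ n (avg k (fOne k χ X)) := by
    have hXn := hX.contDiff_nat h n
    have hχ : ContDiff ℝ n χ := h.smooth.of_le (by exact_mod_cast le_top)
    apply avg_contDiff_nat n k
    exact (hχ.comp (contDiff_fst.comp hXn)).mul ((hχ.comp (contDiff_snd.comp hXn)).pow _)
  have h2 : ContDiff ℝ n (piF k χ X) := contDiff_const.mul h1
  exact h2.rpow_const_of_ne fun s => (piF_pos h hX.cont s).ne'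

/-- First identity: `p^{m-1} (p + 2 s p') = V J^{m+3}`. -/
theorem IsSol.ident_one (h : IsClamp χ M) (hX : IsSol k χ X) {S : ℝ} (hF : Free M S X) {s : ℝ}
    (hs : s ∈ Icc 0 S) :
    pF k χ X s ^ k * (pF k χ X s + 2 * s * deriv (pF k χ X) s) = (X s).1 * (X s).2 ^ (k + 4) := by
  have hd : HasDerivAt (pF k χ X) (deriv (pF k χ X) s) s :=
    ((hX.pF_contDiff h).differentiable (by simp) s).hasDerivAt
  have hf1 : ContDiff ℝ 1 (fOne k χ X) := by
    have hXn := hX.contDiff_nat h 1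
    have hχ : ContDiff ℝ 1 χ := h.smooth.of_le (by exact_mod_cast le_top)
    exact (hχ.comp (contDiff_fst.comp hXn)).mul ((hχ.comp (contDiff_snd.comp hXn)).pow _)
  have hid := avg_identity k hf1 s
  have hpow : (fun s => pF k χ X s ^ (k + 1)) = fun s => ((k : ℝ) + 1) * avg k (fOne k χ X) s :=
    funext fun s => pF_pow h hX.cont s
  have hd2 : HasDerivAt (fun s => pF k χ X s ^ (k + 1))
      (((k : ℝ) + 1) * pF k χ X s ^ k * deriv (pF k χ X) s) s := by
    have h1 : HasDerivAt (fun s => pF k χ X s ^ (k + 1)) _ s := hd.pow (k + 1)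
    refine h1.congr_deriv ?_
    push_cast
    simp
  have hd3 : HasDerivAt (fun s => ((k : ℝ) + 1) * avg k (fOne k χ X) s)
      (((k : ℝ) + 1) * deriv (avg k (fOne k χ X)) s) s :=
    ((avg_hasDerivAt k hf1 s).differentiableAt.hasDerivAt).const_mul _
  rw [hpow] at hd2
  have e1 := hd2.unique hd3
  have hk : (0 : ℝ) < (k : ℝ) + 1 := by positivity
  have e2 : pF k χ X s ^ k * deriv (pF k χ X) s = deriv (avg k (fOne k χ X)) s := by
    have : ((k : ℝ) + 1) * (pF k χ X s ^ k * deriv (pF k χ X) s)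
        = ((k : ℝ) + 1) * deriv (avg k (fOne k χ X)) s := by linarith
    exact mul_left_cancel₀ hk.ne' this
  have e3 : pF k χ X s ^ (k + 1) = ((k : ℝ) + 1) * avg k (fOne k χ X) s := pF_pow h hX.cont s
  have e4 : fOne k χ X s = (X s).1 * (X s).2 ^ (k + 4) := by
    unfold fOne
    rw [hX.chi_fst h hF hs, hX.chi_snd h hF hs]
  calc pF k χ X s ^ k * (pF k χ X s + 2 * s * deriv (pF k χ X) s)
      = pF k χ X s ^ (k + 1) + 2 * s * (pF k χ X s ^ k * deriv (pF k χ X) s) := by ring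
    _ = ((k : ℝ) + 1) * avg k (fOne k χ X) s + 2 * s * deriv (avg k (fOne k χ X)) s := by
        rw [e2, e3]
    _ = _ := by rw [hid, e4]

/-- Second identity. -/
theorem IsSol.ident_two (h : IsClamp χ M) (hX : IsSol k χ X) {S : ℝ} (hF : Free M S X) {s : ℝ}
    (hs : s ∈ Icc 0 S) :
    (X s).2 ^ 2 * pF k χ X s * (pF k χ X s + 2 * s * deriv (pF k χ X) s)
      + 4 * s * ((k : ℝ) + 4) * (X s).1 * deriv (fun r => (X r).2) s ^ 2 * pF k χ X s
    = (X s).1 * (X s).2 * pF k χ X s *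
        (2 * ((k : ℝ) + 1) * deriv (fun r => (X r).2) s
          + 4 * s * deriv (deriv fun r => (X r).2) s)
      + 4 * s * (k : ℝ) * (X s).1 * (X s).2 * deriv (fun r => (X r).2) s
          * deriv (pF k χ X) s := by
  set J : ℝ → ℝ := fun r => (X r).2 with hJ
  set p : ℝ → ℝ := pF k χ X with hp
  have hJs : ContDiff ℝ ∞ J := contDiff_snd.comp (hX.contDiff h)
  have hJ1 : HasDerivAt J (deriv J s) s := (hJs.differentiable (by simp) s).hasDerivAt
  have hJ2 : HasDerivAt (deriv J) (deriv (deriv J) s) s :=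
    (((contDiff_infty_iff_deriv.mp hJs).2).differentiable (by simp) s).hasDerivAt
  have hp1 : HasDerivAt p (deriv p s) s :=
    ((hX.pF_contDiff h).differentiable (by simp) s).hasDerivAt
  have hppos : ∀ r, 0 < p r := fun r => pF_pos h hX.cont r
  have hc1 : ContDiff ℝ 1 (fun r => χ (X r).2) := by
    have hXn := hX.contDiff_nat h 1
    have hχ : ContDiff ℝ 1 χ := h.smooth.of_le (by exact_mod_cast le_top)
    exact hχ.comp (contDiff_snd.comp hXn)
  have hid := avg_identity k hc1 s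
  have hcd : HasDerivAt (cF k χ X) (deriv (cF k χ X) s) s :=
    (avg_hasDerivAt k hc1 s).differentiableAt.hasDerivAt
  have hid' : ((k : ℝ) + 1) * cF k χ X s + 2 * s * deriv (cF k χ X) s = J s := by
    have e : χ (X s).2 = J s := hX.chi_snd h hF hs
    rw [← e]
    exact hid
  -- relation `c J^{k+4} = 2 J' p^k` near s
  have hrel : ∀ r, cF k χ X r * χ (X r).2 ^ (k + 4) = 2 * deriv J r * p r ^ k := by
    intro r
    have e : deriv J r = _ := (hX.hasDerivAt_snd h r).deriv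
    rw [e]
    have := hppos r
    have hne : pF k χ X r ^ k ≠ 0 := (pow_pos (hppos r) k).ne'
    show _ = 2 * (1 / 2 * cF k χ X r * (pF k χ X r ^ k)⁻¹ * χ (X r).2 ^ (k + 4)) *
      pF k χ X r ^ k
    field_simp
  have hev : (fun r => cF k χ X r * J r ^ (k + 4)) =ᶠ[𝓝 s] fun r => 2 * deriv J r * p r ^ k := by
    filter_upwards [hX.chi_snd_eventually h hF hs] with r hr
    rw [← hrel r, hr]
  have hd1 : HasDerivAt (fun r => cF k χ X r * J r ^ (k + 4))
      (deriv (cF k χ X) s * J s ^ (k + 4)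
        + cF k χ X s * (((k : ℝ) + 4) * J s ^ (k + 3) * deriv J s)) s := by
    have h1 := hJ1.pow (k + 4)
    have h2 := hcd.mul h1
    refine h2.congr_deriv ?_
    push_cast
    simp
  have hd2 : HasDerivAt (fun r => 2 * deriv J r * p r ^ k)
      (2 * deriv (deriv J) s * p s ^ k
        + 2 * deriv J s * ((k : ℝ) * p s ^ (k - 1) * deriv p s)) s := by
    have h1 := hp1.pow k
    have h2 := (hJ2.const_mul 2).mul h1
    exact h2
  have hd1' := hd1.congr_of_eventuallyEq hev.symm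
  have e1 := hd1'.unique hd2
  have e2 : cF k χ X s * J s ^ (k + 4) = 2 * deriv J s * p s ^ k := hev.self_of_nhds
  have e3 := hX.ident_one h hF hs
  have hJpos : 0 < J s := by
    have := hX.one_le_snd h hs.1
    show 0 < (X s).2
    linarith
  have hVpos : 0 < (X s).1 := by
    have := hX.one_le_fst h hs.1
    linarith
  -- multiply everything by p^k
  have hpk : p s ^ k ≠ 0 := (pow_pos (hppos s) k).ne'
  have hpk1 : (k : ℝ) * p s ^ (k - 1) * p s = (k : ℝ) * p s ^ k := by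
    rcases k with _ | k
    · simp
    · simp only [Nat.add_sub_cancel]
      rw [pow_succ]; ring
  apply mul_left_cancel₀ hpk
  set V := (X s).1
  set c := cF k χ X s
  set c' := deriv (cF k χ X) s
  set j := J s
  set j1 := deriv J s
  set j2 := deriv (deriv J) s
  set q := p s
  set q1 := deriv p s
  -- e1 : c' * j^(k+4) + c*((k+4) j^(k+3) j1) = 2 j2 q^k + 2 j1 (k q^(k-1) q1)
  -- e2 : c * j^(k+4) = 2 j1 q^k
  -- e3 : q^k (q + 2 s q1) = V j^(k+4)
  -- hid' : (k+1) c + 2 s c' = j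
  have e3' : q ^ k * (q + 2 * s * q1) = V * j ^ (k + 4) := e3
  have e4 : j ^ (k + 4) = j * j ^ (k + 3) := by ring
  have key1 : V * j ^ (k + 4) * (j ^ 2 * q) = q * V * j * (j ^ (k + 4) * j) := by ring
  have key2 : j ^ (k + 4) * j = ((k : ℝ) + 1) * (c * j ^ (k + 4)) + 2 * s * (c' * j ^ (k + 4)) := by
    rw [← hid']; ring
  have key3 : c' * j ^ (k + 4) = 2 * j2 * q ^ k + 2 * j1 * (k * q ^ (k - 1) * q1)
      - c * (((k : ℝ) + 4) * j ^ (k + 3) * j1) := by linarith
  have key4 : c * (((k : ℝ) + 4) * j ^ (k + 3) * j1) * j = ((k : ℝ) + 4) * j1 * (2 * j1 * q ^ k) := by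
    rw [← e2]; ring
  have key5 : (k * q ^ (k - 1) * q1) * q = k * q ^ k * q1 := by
    calc (k * q ^ (k - 1) * q1) * q = (k * q ^ (k - 1) * q) * q1 := by ring
      _ = _ := by rw [hpk1]
  calc q ^ k * (j ^ 2 * q * (q + 2 * s * q1) + 4 * s * ((k : ℝ) + 4) * V * j1 ^ 2 * q)
      = (q ^ k * (q + 2 * s * q1)) * (j ^ 2 * q)
        + q ^ k * (4 * s * ((k : ℝ) + 4) * V * j1 ^ 2 * q) := by ring
    _ = q * V * j * (j ^ (k + 4) * j) + q ^ k * (4 * s * ((k : ℝ) + 4) * V * j1 ^ 2 * q) := by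
        rw [e3', key1]
    _ = q * V * j * (((k : ℝ) + 1) * (2 * j1 * q ^ k)
          + 2 * s * (2 * j2 * q ^ k + 2 * j1 * (k * q ^ (k - 1) * q1)
            - c * (((k : ℝ) + 4) * j ^ (k + 3) * j1)))
        + q ^ k * (4 * s * ((k : ℝ) + 4) * V * j1 ^ 2 * q) := by
        rw [key2, e2, key3]
    _ = q * V * j * (((k : ℝ) + 1) * (2 * j1 * q ^ k) + 2 * s * (2 * j2 * q ^ k))
        + 4 * s * V * j * j1 * ((k * q ^ (k - 1) * q1) * q)
        - 2 * s * q * V * (c * (((k : ℝ) + 4) * j ^ (k + 3) * j1) * j)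
        + q ^ k * (4 * s * ((k : ℝ) + 4) * V * j1 ^ 2 * q) := by ring
    _ = q * V * j * (((k : ℝ) + 1) * (2 * j1 * q ^ k) + 2 * s * (2 * j2 * q ^ k))
        + 4 * s * V * j * j1 * (k * q ^ k * q1)
        - 2 * s * q * V * (((k : ℝ) + 4) * j1 * (2 * j1 * q ^ k))
        + q ^ k * (4 * s * ((k : ℝ) + 4) * V * j1 ^ 2 * q) := by rw [key4, key5]
    _ = _ := by ring

end Vale.Agent.P252
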