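import Vale.Agent.P252.Solution

/-!
The trapping region for the autonomous system.
-/

namespace Vale.Agent.P252

open MeasureTheory intervalIntegral Set Filter Topology
open scoped ContDiff

/-- First-zero argument for a family of quantities. -/
theorem first_zero {ι : Type*} [Finite ι] {S C : ℝ} (A A' : ι → ℝ → ℝ)
    (h0 : ∀ i, 0 < A i 0)
    (hd : ∀ i, ∀ s ∈ Icc 0 S, HasDerivAt (A i) (A' i s) s)
    (hineq : ∀ s ∈ Icc 0 S, (∀ j, 0 ≤ A j s) → ∀ i, -C * A i s ≤ 2 * s * A' i s) :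
    ∀ s ∈ Icc 0 S, ∀ i, 0 < A i s := by
  classical
  by_contra hcon
  push Not at hcon
  obtain ⟨s2, hs2, i2, hi2⟩ := hcon
  set C' : ℝ := max C 0 with hC'
  have hC0 : 0 ≤ C' := le_max_right _ _
  -- the bad set
  set B : Set ℝ := {s | s ∈ Icc 0 S ∧ ∃ i, A i s ≤ 0} with hB
  have hBne : B.Nonempty := ⟨s2, hs2, i2, hi2⟩
  have hBb : BddBelow B := ⟨0, fun s hs => hs.1.1⟩
  have hcA : ∀ i, ContinuousOn (A i) (Icc 0 S) := fun i s hs =>
    (hd i s hs).continuousAt.continuousWithinAt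
  have hBc : IsClosed B := by
    have e : B = ⋃ i, {s | s ∈ Icc 0 S ∧ A i s ≤ 0} := by
      ext s; simp [hB]
    rw [e]
    apply isClosed_iUnion_of_finite
    intro i
    exact (hcA i).preimage_isClosed_of_isClosed isClosed_Icc isClosed_Iic (t := Iic (0 : ℝ))
  set s1 := sInf B with hs1
  have hs1B : s1 ∈ B := hBc.csInf_mem hBne hBb
  obtain ⟨hs1I, i, hi⟩ := hs1B
  have hlt : ∀ s ∈ Icc 0 S, s < s1 → ∀ j, 0 < A j s := by
    intro s hs hss j
    by_contra hn
    push Not at hn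
    have : s1 ≤ s := csInf_le hBb ⟨hs, j, hn⟩
    linarith
  have hs1pos : 0 < s1 := by
    rcases hs1I.1.lt_or_eq with h | h
    · exact h
    · exfalso
      rw [← h] at hi
      linarith [h0 i]
  have hnn : ∀ s ∈ Icc 0 s1, ∀ j, 0 ≤ A j s := by
    intro s hs j
    rcases hs.2.lt_or_eq with h | h
    · exact (hlt s ⟨hs.1, hs.2.trans hs1I.2⟩ h j).le
    · -- closure argument
      rw [h]
      have hc : ContinuousWithinAt (A j) (Iio s1) s1 :=
        (hd j s1 hs1I).continuousAt.continuousWithinAt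
      apply ge_of_tendsto hc
      have : ∀ᶠ r in 𝓝[<] s1, 0 < r := by
        apply eventually_nhdsWithin_of_eventually_nhds
        exact lt_mem_nhds hs1pos
      filter_upwards [this, self_mem_nhdsWithin] with r hr hr2
      exact (hlt r ⟨hr.le, hr2.le.trans hs1I.2⟩ hr2 j).le
  -- monotonicity of `A i * exp (C' s / s1)` on `[s1/2, s1]`
  have hsub : Icc (s1 / 2) s1 ⊆ Icc 0 S := fun s hs =>
    ⟨by linarith [hs.1], hs.2.trans hs1I.2⟩
  have hder : ∀ s ∈ Icc (s1 / 2) s1, HasDerivAt (fun s => A i s * Real.exp (C' * s / s1))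
      (A' i s * Real.exp (C' * s / s1) + A i s * (Real.exp (C' * s / s1) * (C' / s1))) s := by
    intro s hs
    have h1 := hd i s (hsub hs)
    have h2 : HasDerivAt (fun s : ℝ => C' * s / s1) (C' / s1) s := by
      have := ((hasDerivAt_id s).const_mul C').div_const s1
      simpa using this
    exact h1.mul h2.exp
  have hmono : MonotoneOn (fun s => A i s * Real.exp (C' * s / s1)) (Icc (s1 / 2) s1) := by
    apply monotoneOn_of_deriv_nonneg (convex_Icc _ _)
    · intro s hs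
      exact (hder s hs).continuousAt.continuousWithinAt
    · intro s hs
      exact (hder s (interior_subset hs)).differentiableAt.differentiableWithinAt
    · intro s hs
      have hs' := interior_subset hs
      rw [(hder s hs').deriv]
      have hA : 0 ≤ A i s := hnn s ⟨by linarith [hs'.1], hs'.2⟩ i
      have h1 := hineq s (hsub hs') (fun j => hnn s ⟨by linarith [hs'.1], hs'.2⟩ j) i
      have hspos : 0 < s := by linarith [hs'.1]
      have h2 : -C' * A i s ≤ 2 * s * A' i s := by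
        have : C * A i s ≤ C' * A i s := mul_le_mul_of_nonneg_right (le_max_left _ _) hA
        linarith
      have h3 : 0 ≤ A' i s + A i s * (C' / s1) := by
        have h4 : -(C' * A i s) / (2 * s) ≤ A' i s := by
          rw [div_le_iff₀ (by positivity)]
          linarith
        have h5 : C' * A i s / (2 * s) ≤ C' * A i s / s1 := by
          apply div_le_div_of_nonneg_left (by positivity) hs1pos
          linarith [hs'.1]
        have h6 : A i s * (C' / s1) = C' * A i s / s1 := by ring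
        rw [h6]
        have h7 : -(C' * A i s) / (2 * s) = -(C' * A i s / (2 * s)) := by ring
        linarith
      have : A' i s * Real.exp (C' * s / s1) + A i s * (Real.exp (C' * s / s1) * (C' / s1))
          = (A' i s + A i s * (C' / s1)) * Real.exp (C' * s / s1) := by ring
      rw [this]
      positivity
  have hfin := hmono (left_mem_Icc.mpr (by linarith)) (right_mem_Icc.mpr (by linarith))
    (by linarith : s1 / 2 ≤ s1)
  simp only at hfin
  have hp : 0 < A i (s1 / 2) :=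
    hlt (s1 / 2) ⟨by linarith, by linarith [hs1I.2]⟩ (by linarith) i
  have h1 : 0 < A i (s1 / 2) * Real.exp (C' * (s1 / 2) / s1) := by positivity
  have h2 : A i s1 * Real.exp (C' * s1 / s1) ≤ 0 :=
    mul_nonpos_of_nonpos_of_nonneg hi (Real.exp_pos _).le
  linarith

/-- Abstract flow data: `V, J, p` on `[0,S]` with their derivatives. -/
structure FlowData (k : ℕ) (S : ℝ) (V J p j1 j2 p1 : ℝ → ℝ) : Prop where
  V0 : V 0 = 1
  J0 : J 0 = 1
  p0 : p 0 = 1
  Vpos : ∀ s ∈ Icc 0 S, 0 < V s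
  Jpos : ∀ s ∈ Icc 0 S, 0 < J s
  ppos : ∀ s ∈ Icc 0 S, 0 < p s
  j1nn : ∀ s ∈ Icc 0 S, 0 ≤ j1 s
  dV : ∀ s ∈ Icc 0 S, HasDerivAt V (1 / 2 * p s) s
  dJ : ∀ s ∈ Icc 0 S, HasDerivAt J (j1 s) s
  dj1 : ∀ s ∈ Icc 0 S, HasDerivAt j1 (j2 s) s
  dp : ∀ s ∈ Icc 0 S, HasDerivAt p (p1 s) s
  one : ∀ s ∈ Icc 0 S, p s ^ k * (p s + 2 * s * p1 s) = V s * J s ^ (k + 4)
  two : ∀ s ∈ Icc 0 S, J s ^ 2 * p s * (p s + 2 * s * p1 s)
      + 4 * s * ((k : ℝ) + 4) * V s * j1 s ^ 2 * p s
    = V s * J s * p s * (2 * ((k : ℝ) + 1) * j1 s + 4 * s * j2 s)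
      + 4 * s * (k : ℝ) * V s * J s * j1 s * p1 s

namespace FlowData

variable {k : ℕ} {S : ℝ} {V J p j1 j2 p1 : ℝ → ℝ}

/-- `P = s p / V`. -/
noncomputable def fP (V p : ℝ → ℝ) (s : ℝ) : ℝ := s * p s / V s

/-- `Q = V J^{m+3} / p^m`. -/
noncomputable def fQ (k : ℕ) (V J p : ℝ → ℝ) (s : ℝ) : ℝ := V s * J s ^ (k + 4) / p s ^ (k + 1)

/-- `ε = 2 s J' / J`. -/
noncomputable def fE (J j1 : ℝ → ℝ) (s : ℝ) : ℝ := 2 * s * j1 s / J s

theorem Q_eq (h : FlowData k S V J p j1 j2 p1) {s : ℝ} (hs : s ∈ Icc 0 S) :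
    2 * s * p1 s = p s * (fQ k V J p s - 1) := by
  have h1 := h.one s hs
  have h2 := h.ppos s hs
  have h3 : p s ^ k ≠ 0 := (pow_pos h2 k).ne'
  unfold fQ
  rw [← h1, pow_succ]
  field_simp
  ring

theorem hasDerivAt_P (h : FlowData k S V J p j1 j2 p1) {s : ℝ} (hs : s ∈ Icc 0 S) :
    ∃ d, HasDerivAt (fP V p) d s ∧ 2 * s * d = fP V p s * (1 + fQ k V J p s - fP V p s) := by
  have hV := h.Vpos s hs
  refine ⟨_, ((hasDerivAt_id s).mul (h.dp s hs)).div (h.dV s hs) hV.ne', ?_⟩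
  have hQ := h.Q_eq hs
  unfold fP
  set Q := fQ k V J p s
  simp only [id]
  have e : 2 * s * ((1 * p s + s * p1 s) * V s - s * p s * (1 / 2 * p s))
      = 2 * s * p s * V s + s * (2 * s * p1 s) * V s - s ^ 2 * p s ^ 2 := by ring
  rw [hQ] at e
  rw [← mul_div_assoc]
  show 2 * s * ((1 * p s + s * p1 s) * V s - s * p s * (1 / 2 * p s)) / V s ^ 2 = _
  rw [e]
  field_simp
  ring

theorem hasDerivAt_Q (h : FlowData k S V J p j1 j2 p1) {s : ℝ} (hs : s ∈ Icc 0 S) :
    ∃ d, HasDerivAt (fQ k V J p) d s ∧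
      2 * s * d = fQ k V J p s * (((k : ℝ) + 1) + fP V p s - ((k : ℝ) + 1) * fQ k V J p s
        + ((k : ℝ) + 4) * fE J j1 s) := by
  have hV := h.Vpos s hs
  have hJ := h.Jpos s hs
  have hp := h.ppos s hs
  have hpk : p s ^ (k + 1) ≠ 0 := (pow_pos hp _).ne'
  have d1 : HasDerivAt (fun s => J s ^ (k + 4)) (((k : ℝ) + 4) * J s ^ (k + 3) * j1 s) s := by
    have h1 : HasDerivAt (fun s => J s ^ (k + 4)) _ s := (h.dJ s hs).pow (k + 4)
    refine h1.congr_deriv ?_
    push_cast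
    simp
  have d2 : HasDerivAt (fun s => p s ^ (k + 1)) (((k : ℝ) + 1) * p s ^ k * p1 s) s := by
    have h1 : HasDerivAt (fun s => p s ^ (k + 1)) _ s := (h.dp s hs).pow (k + 1)
    refine h1.congr_deriv ?_
    push_cast
    simp
  refine ⟨_, ((h.dV s hs).mul d1).div d2 hpk, ?_⟩
  have hQ := h.Q_eq hs
  set Q := fQ k V J p s with hQdef
  have hQe : V s * J s ^ (k + 4) = Q * p s ^ (k + 1) := by
    rw [hQdef]; unfold fQ; field_simp
  have hPe : s * p s = fP V p s * V s := by unfold fP; field_simp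
  have hEe : 2 * s * j1 s = fE J j1 s * J s := by unfold fE; field_simp
  set P := fP V p s
  set E := fE J j1 s
  have e : 2 * s * ((1 / 2 * p s * J s ^ (k + 4) + V s * (((k : ℝ) + 4) * J s ^ (k + 3) * j1 s))
      * p s ^ (k + 1) - V s * J s ^ (k + 4) * (((k : ℝ) + 1) * p s ^ k * p1 s))
      = (s * p s) * J s ^ (k + 4) * p s ^ (k + 1)
        + ((k : ℝ) + 4) * V s * J s ^ (k + 3) * (2 * s * j1 s) * p s ^ (k + 1)
        - (V s * J s ^ (k + 4)) * (((k : ℝ) + 1) * p s ^ k * (2 * s * p1 s)) := by ring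
  rw [← mul_div_assoc]
  show 2 * s * ((1 / 2 * p s * J s ^ (k + 4) + V s * (((k : ℝ) + 4) * J s ^ (k + 3) * j1 s))
      * p s ^ (k + 1) - V s * J s ^ (k + 4) * (((k : ℝ) + 1) * p s ^ k * p1 s))
      / (p s ^ (k + 1)) ^ 2 = _
  rw [e, hQ, hPe, hEe]
  have e2 : P * V s * J s ^ (k + 4) * p s ^ (k + 1)
        + ((k : ℝ) + 4) * V s * J s ^ (k + 3) * (E * J s) * p s ^ (k + 1)
        - (V s * J s ^ (k + 4)) * (((k : ℝ) + 1) * p s ^ k * (p s * (Q - 1)))
      = (V s * J s ^ (k + 4)) * p s ^ (k + 1) *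
        (P + ((k : ℝ) + 4) * E - ((k : ℝ) + 1) * (Q - 1)) := by ring
  rw [e2, hQe]
  field_simp
  ring

theorem hasDerivAt_E (h : FlowData k S V J p j1 j2 p1) {s : ℝ} (hs : s ∈ Icc 0 S) :
    ∃ d, HasDerivAt (fE J j1) d s ∧
      2 * s * d = fP V p s * fQ k V J p s
        + fE J j1 s * (1 + ((k : ℝ) + 3) * fE J j1 s - (k : ℝ) * fQ k V J p s) := by
  have hV := h.Vpos s hs
  have hJ := h.Jpos s hs
  have hp := h.ppos s hs
  refine ⟨_, (((hasDerivAt_id s).const_mul 2).mul (h.dj1 s hs)).div (h.dJ s hs) hJ.ne', ?_⟩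
  have hQ := h.Q_eq hs
  set Q := fQ k V J p s with hQdef
  have hPe : s * p s = fP V p s * V s := by unfold fP; field_simp
  have hEe : 2 * s * j1 s = fE J j1 s * J s := by unfold fE; field_simp
  set P := fP V p s
  set E := fE J j1 s
  have h2 := h.two s hs
  -- multiply by s
  have h3 : J s ^ 2 * (s * p s) * (p s + 2 * s * p1 s)
      + ((k : ℝ) + 4) * V s * (2 * s * j1 s) ^ 2 * p s
    = V s * J s * p s * (((k : ℝ) + 1) * (2 * s * j1 s) + 4 * s ^ 2 * j2 s)
      + (k : ℝ) * V s * J s * (2 * s * j1 s) * (2 * s * p1 s) := by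
    linear_combination s * h2
  rw [hQ, hPe, hEe] at h3
  have h4 : J s * p s * V s ≠ 0 := by positivity
  have h5 : 4 * s ^ 2 * j2 s = J s * (P * Q + ((k : ℝ) + 4) * E ^ 2 - ((k : ℝ) + 1) * E
      - (k : ℝ) * E * (Q - 1)) := by
    apply mul_left_cancel₀ h4
    linear_combination -h3
  simp only [id]
  rw [← mul_div_assoc]
  show 2 * s * ((2 * 1 * j1 s + 2 * s * j2 s) * J s - 2 * s * j1 s * j1 s) / J s ^ 2 = _
  have e : 2 * s * ((2 * 1 * j1 s + 2 * s * j2 s) * J s - 2 * s * j1 s * j1 s)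
      = 2 * (2 * s * j1 s) * J s + (4 * s ^ 2 * j2 s) * J s - (2 * s * j1 s) ^ 2 := by ring
  rw [e, h5, hEe]
  field_simp
  ring

/-- The trapping region. -/
theorem trap (h : FlowData k S V J p j1 j2 p1) (hk : 8 ≤ k) :
    ∀ s ∈ Icc 0 S, fP V p s < 9 / 2 ∧ fQ k V J p s < 7 / 2 ∧
      1 / 2 + 2 * fE J j1 s < fQ k V J p s := by
  classical
  choose! dP hdP1 hdP2 using fun s (hs : s ∈ Icc 0 S) => h.hasDerivAt_P hs
  choose! dQ hdQ1 hdQ2 using fun s (hs : s ∈ Icc 0 S) => h.hasDerivAt_Q hs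
  choose! dE hdE1 hdE2 using fun s (hs : s ∈ Icc 0 S) => h.hasDerivAt_E hs
  set P := fP V p with hP
  set Q := fQ k V J p with hQ
  set E := fE J j1 with hE
  let A : Fin 3 → ℝ → ℝ := ![fun s => 9 / 2 - P s, fun s => 7 / 2 - Q s,
    fun s => Q s - 1 / 2 - 2 * E s]
  let A' : Fin 3 → ℝ → ℝ := ![fun s => - dP s, fun s => - dQ s,
    fun s => dQ s - 2 * dE s]
  have hk' : (8 : ℝ) ≤ k := by exact_mod_cast hk
  have hP0 : P 0 = 0 := by simp [hP, fP]
  have hQ0 : Q 0 = 1 := by simp [hQ, fQ, h.V0, h.J0, h.p0]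
  have hE0 : E 0 = 0 := by simp [hE, fE]
  have main := first_zero (S := S) (C := 10 * ((k : ℝ) + 2)) A A' ?_ ?_ ?_
  · intro s hs
    have h0 := main s hs 0
    have h1 := main s hs 1
    have h2 := main s hs 2
    simp only [A, Matrix.cons_val_zero, Matrix.cons_val_one, Matrix.cons_val] at h0 h1 h2
    refine ⟨by linarith, by linarith, by linarith⟩
  · intro i
    fin_cases i
    · simp only [A]; simp [hP0]
    · simp only [A]; simp [hQ0]; norm_num
    · simp only [A]; simp [hQ0, hE0]; norm_num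
  · intro i s hs
    fin_cases i
    · exact (hdP1 s hs).const_sub (9 / 2)
    · exact (hdQ1 s hs).const_sub (7 / 2)
    · exact ((hdQ1 s hs).sub_const (1 / 2)).sub ((hdE1 s hs).const_mul 2)
  · intro s hs hnn i
    have hV := h.Vpos s hs
    have hJ := h.Jpos s hs
    have hp := h.ppos s hs
    have hj := h.j1nn s hs
    have hs0 : 0 ≤ s := hs.1
    have hPn : 0 ≤ P s := by simp only [hP, fP]; positivity
    have hQn : 0 ≤ Q s := by simp only [hQ, fQ]; positivity
    have hEn : 0 ≤ E s := by simp only [hE, fE]; positivity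
    have n0 := hnn 0
    have n1 := hnn 1
    have n2 := hnn 2
    simp only [A, Matrix.cons_val_zero, Matrix.cons_val_one, Matrix.cons_val] at n0 n1 n2
    have e1 := hdP2 s hs
    have e2 := hdQ2 s hs
    have e3 := hdE2 s hs
    obtain ⟨a, ha⟩ : ∃ a, a = 9 / 2 - P s := ⟨_, rfl⟩
    obtain ⟨b, hb⟩ : ∃ b, b = 7 / 2 - Q s := ⟨_, rfl⟩
    obtain ⟨c, hc⟩ : ∃ c, c = Q s - 1 / 2 - 2 * E s := ⟨_, rfl⟩
    rw [← ha] at n0
    rw [← hb] at n1
    rw [← hc] at n2
    obtain ⟨x, hx⟩ : ∃ x, x = (k : ℝ) - 8 := ⟨_, rfl⟩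
    have hx0 : 0 ≤ x := by linarith
    have hkx : (k : ℝ) = x + 8 := by linarith
    have hE32 : E s ≤ 3 / 2 := by linarith
    have hc3 : c ≤ 3 := by linarith
    fin_cases i
    · -- A1
      show -(10 * ((k : ℝ) + 2)) * (9 / 2 - P s) ≤ 2 * s * (- dP s)
      rw [← ha]
      have : 2 * s * (- dP s) = - P s * a + P s * b := by
        rw [ha, hb]
        linear_combination -e1
      rw [this]
      have h1 : P s * a ≤ 10 * ((k : ℝ) + 2) * a := by
        apply mul_le_mul_of_nonneg_right _ n0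
        linarith
      have h2 : 0 ≤ P s * b := by positivity
      linarith
    · -- A2
      show -(10 * ((k : ℝ) + 2)) * (7 / 2 - Q s) ≤ 2 * s * (- dQ s)
      rw [← hb]
      have : 2 * s * (- dQ s) = Q s * (x + a - ((x + 6) / 2) * b + ((x + 12) / 2) * c) := by
        rw [ha, hb, hc, hx]
        linear_combination -e2
      rw [this]
      have h1 : Q s * (((x + 6) / 2) * b) ≤ 10 * ((k : ℝ) + 2) * b := by
        have : Q s * (((x + 6) / 2) * b) = (Q s * ((x + 6) / 2)) * b := by ring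
        rw [this]
        apply mul_le_mul_of_nonneg_right _ n1
        have : Q s * ((x + 6) / 2) ≤ 7 / 2 * ((x + 6) / 2) := by
          apply mul_le_mul_of_nonneg_right (by linarith) (by positivity)
        linarith
      have h2 : 0 ≤ Q s * (x + a + ((x + 12) / 2) * c) := by positivity
      have h3 : Q s * (x + a - ((x + 6) / 2) * b + ((x + 12) / 2) * c)
        = Q s * (x + a + ((x + 12) / 2) * c) - Q s * (((x + 6) / 2) * b) := by ring
      linarith
    · -- A3
      show -(10 * ((k : ℝ) + 2)) * (Q s - 1 / 2 - 2 * E s) ≤ 2 * s * (dQ s - 2 * dE s)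
      rw [← hc]
      have : 2 * s * (dQ s - 2 * dE s) =
          (9 / 4 + 12 * E s - 2 * E s ^ 2 - P s * (1 / 2 + 2 * E s))
            + x * (1 / 4 + 3 / 2 * E s)
            - c * (P s + (x + 8) * E s + (x + 9) * c) := by
        rw [hc, hx]
        linear_combination e2 - 2 * e3
      rw [this]
      have h1 : c * (P s + (x + 8) * E s + (x + 9) * c) ≤ 10 * ((k : ℝ) + 2) * c := by
        have : c * (P s + (x + 8) * E s + (x + 9) * c)
          = (P s + (x + 8) * E s + (x + 9) * c) * c := by ring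
        rw [this]
        apply mul_le_mul_of_nonneg_right _ n2
        have h1 : (x + 8) * E s ≤ (x + 8) * (3 / 2) :=
          mul_le_mul_of_nonneg_left hE32 (by positivity)
        have h2 : (x + 9) * c ≤ (x + 9) * 3 :=
          mul_le_mul_of_nonneg_left hc3 (by positivity)
        linarith
      have h2 : 0 ≤ x * (1 / 4 + 3 / 2 * E s) := by positivity
      have h3 : 0 ≤ 9 / 4 + 12 * E s - 2 * E s ^ 2 - P s * (1 / 2 + 2 * E s) := by
        have h4 : P s * (1 / 2 + 2 * E s) ≤ 9 / 2 * (1 / 2 + 2 * E s) := by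
          apply mul_le_mul_of_nonneg_right (by linarith) (by positivity)
        have h5 : 0 ≤ E s * (3 - 2 * E s) := mul_nonneg hEn (by linarith)
        nlinarith
      linarith

end FlowData

end Vale.Agent.P252
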